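import Vale.Agent.H13.ED.Final

/-! Row GRID2. -/

namespace Vale.Agent.H13.ED2

open Pointwise Finset Vale.Agent.H13.ED

variable {n : ℕ}

theorem grid2_proof {P Q : Set (Fin n → ℝ)} (hP : Solid P) (hQ : Solid Q)
    {s : Finset (Fin n → ℝ)} (hs : Covers Q (polar P) s) (A : Finset (Fin n))
    {x y : Fin n → ℝ} (hx : x ∈ P) (hx0 : ∀ i, 0 ≤ x i) (hy : y ∈ Q) (hy0 : ∀ i, 0 ≤ y i) :
    ∏ i ∈ A, (⌊A.card * (x i * y i) / 2⌋₊ + 1) ≤ 6 ^ A.card * s.card := by
  classical
  rw [covers_iff] at hs
  rcases A.eq_empty_or_nonempty with hA | hA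
  · subst hA
    obtain ⟨c, hc, -⟩ := hs y hy
    have : 0 < s.card := Finset.card_pos.2 ⟨c, hc⟩
    simpa using this
  set k := A.card with hk
  have hk0 : 0 < k := hA.card_pos
  have hkR : (0:ℝ) < k := by exact_mod_cast hk0
  let T : Finset (Fin n → ℕ) := Fintype.piFinset
    (fun i => if i ∈ A then Finset.range (⌊k * (x i * y i) / 2⌋₊ + 1) else {0})
  have hT : T.card = ∏ i ∈ A, (⌊k * (x i * y i) / 2⌋₊ + 1) := by
    dsimp only [T]
    rw [Fintype.card_piFinset]
    rw [← Finset.prod_subset (Finset.subset_univ A)]
    · apply Finset.prod_congr rfl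
      intro i hi
      simp [hi]
    · intro i _ hi
      simp [hi]
  rw [← hT]
  let f : (Fin n → ℕ) → (Fin n → ℝ) :=
    fun q i => if i ∈ A then (q i : ℝ) * (2 / (k * x i)) else 0
  have hqb : ∀ q ∈ T, ∀ i ∈ A, (q i : ℝ) ≤ k * (x i * y i) / 2 := by
    intro q hq i hi
    rw [Fintype.mem_piFinset] at hq
    have h1 := hq i
    simp only [hi, if_true, Finset.mem_range] at h1
    have h2 : q i ≤ ⌊k * (x i * y i) / 2⌋₊ := by omega
    have h3 : (0:ℝ) ≤ k * (x i * y i) / 2 := by
      have := hx0 i
      have := hy0 i
      positivity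
    exact le_trans (by exact_mod_cast h2) (Nat.floor_le h3)
  have hf : ∀ q ∈ T, f q ∈ Q := by
    intro q hq
    apply hQ y hy
    intro i
    dsimp only [f]
    split_ifs with hi
    · have h1 := hqb q hq i hi
      rcases eq_or_lt_of_le (hx0 i) with h0 | h0
      · rw [← h0]
        simp
      · rw [abs_of_nonneg (by positivity), abs_of_nonneg (hy0 i)]
        have h2 : (q i : ℝ) * (2 / (k * x i)) = (2 * q i) / (k * x i) := by ring
        rw [h2, div_le_iff₀ (by positivity)]
        nlinarith
    · simp
  have hex : ∀ q : Fin n → ℕ, ∃ c : Fin n → ℝ, q ∈ T → (c ∈ s ∧ f q - c ∈ polar P) := by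
    intro q
    by_cases hq : q ∈ T
    · obtain ⟨c, hc1, hc2⟩ := hs (f q) (hf q hq)
      exact ⟨c, fun _ => ⟨hc1, hc2⟩⟩
    · exact ⟨0, fun h => absurd h hq⟩
  choose g hg using hex
  apply Finset.card_le_mul_card_image_of_maps_to (f := g) (fun q hq => (hg q hq).1)
  intro c _
  rcases (T.filter (fun q => g q = c)).eq_empty_or_nonempty with h | ⟨q0, hq0⟩
  · rw [h]
    simp
  · rw [Finset.mem_filter] at hq0
    let h : (Fin n → ℕ) → (Fin n → ℤ) := fun q i => (q i : ℤ) - q0 i
    have hinj : Function.Injective h := by
      intro q q' hqq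
      funext i
      have := congrFun hqq i
      dsimp only [h] at this
      omega
    rw [← Finset.card_image_of_injective _ hinj]
    have : (6:ℕ) ^ k = 2 ^ k * 3 ^ A.card := by rw [← hk, ← mul_pow]; norm_num
    rw [this]
    apply count_l1
    · intro a ha i hi
      obtain ⟨q, hq, rfl⟩ := Finset.mem_image.1 ha
      rw [Finset.mem_filter] at hq
      have h3 := (Fintype.mem_piFinset.1 hq.1) i
      have h4 := (Fintype.mem_piFinset.1 hq0.1) i
      simp only [hi, if_false, Finset.mem_singleton] at h3 h4
      dsimp only [h]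
      rw [h3, h4]
      simp
    · intro a ha
      obtain ⟨q, hq, rfl⟩ := Finset.mem_image.1 ha
      rw [Finset.mem_filter] at hq
      have h1 := (hg q hq.1).2
      have h2 := (hg q0 hq0.1).2
      rw [hq.2] at h1
      rw [hq0.2] at h2
      have h3 := two_point hP hx h1 h2
      have h4 : ∑ i, (((h q i).natAbs : ℕ) : ℝ) ≤ k := by
        have h5 : ∀ i, 2 / (k:ℝ) * (((h q i).natAbs : ℕ) : ℝ) ≤ |x i| * |f q i - f q0 i| := by
          intro i
          have hzero : h q i = 0 →
              2 / (k:ℝ) * (((h q i).natAbs : ℕ) : ℝ) ≤ |x i| * |f q i - f q0 i| := by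
            intro h5
            rw [h5]
            simp
            positivity
          by_cases hi : i ∈ A
          · rcases eq_or_lt_of_le (hx0 i) with h0 | h0
            · apply hzero
              have e1 := hqb q hq.1 i hi
              have e2 := hqb q0 hq0.1 i hi
              rw [← h0] at e1 e2
              simp only [zero_mul, mul_zero, zero_div] at e1 e2
              have e3 : q i = 0 := by
                have : (q i : ℝ) = 0 := le_antisymm e1 (by positivity)
                exact_mod_cast this
              have e4 : q0 i = 0 := by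
                have : (q0 i : ℝ) = 0 := le_antisymm e2 (by positivity)
                exact_mod_cast this
              dsimp only [h]
              rw [e3, e4]
              simp
            · have h6 : |f q i - f q0 i| = (((h q i).natAbs : ℕ) : ℝ) * (2 / (k * x i)) := by
                dsimp only [f, h]
                rw [if_pos hi, if_pos hi, ← sub_mul, abs_mul,
                  abs_of_pos (by positivity : (0:ℝ) < 2 / (k * x i)), Nat.cast_natAbs]
                push_cast
                rfl
              rw [h6, abs_of_pos h0]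
              apply le_of_eq
              field_simp
          · apply hzero
            have h3 := (Fintype.mem_piFinset.1 hq.1) i
            have h4 := (Fintype.mem_piFinset.1 hq0.1) i
            simp only [hi, if_false, Finset.mem_singleton] at h3 h4
            dsimp only [h]
            rw [h3, h4]
            simp
        have h6 : 2 / (k:ℝ) * ∑ i, (((h q i).natAbs : ℕ) : ℝ) ≤ 2 := by
          rw [Finset.mul_sum]
          exact le_trans (Finset.sum_le_sum (fun i _ => h5 i)) h3
        rw [div_mul_eq_mul_div, div_le_iff₀ hkR] at h6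
        linarith
      exact_mod_cast h4

end Vale.Agent.H13.ED2
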