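import Vale.Agent.H13.ED2.VarLog
import Vale.Agent.H13.ED2.Grid2

namespace Vale.Agent.H13.ED2

open Pointwise Finset Vale.Agent.H13.ED

variable {n : ℕ}

/-- Row LOWDIM (uses VAR1, GRID2) -/
theorem lowdim' {P Q : Set (Fin n → ℝ)} (hP : Solid P) (hPc : Convex ℝ P) (hPk : IsCompact P)
    (hPn : P.Nonempty) (hQ : Solid Q) (hQc : Convex ℝ Q)
    (hQk : IsCompact Q) (hQn : Q.Nonempty)
    {s : Finset (Fin n → ℝ)} (hs : Covers Q (polar P) s) (hM : 1 ≤ s.card)
    (A : Finset (Fin n)) :
    ∃ sA : Finset (Fin n → ℝ), sA.card ≤ 256 ^ A.card * s.card ∧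
      ∀ x ∈ P, (∀ i, i ∉ A → x i = 0) → ∃ c ∈ sA, ∀ z ∈ Q, ∑ i, |(x - c) i| * |z i| ≤ 2 := by
  classical
  rcases A.eq_empty_or_nonempty with hA | hA
  · refine ⟨{0}, ?_, ?_⟩
    · rw [hA]
      simpa using hM
    · intro x _ hx
      refine ⟨0, Finset.mem_singleton_self _, ?_⟩
      intro z _
      have : ∀ i, x i = 0 := fun i => hx i (by rw [hA]; simp)
      simp [this]
  set d := A.card with hd
  have hd0 : 0 < d := hA.card_pos
  have hdR : (0:ℝ) < d := by exact_mod_cast hd0
  -- bound on Q
  obtain ⟨t, ht, htQ⟩ : ∃ t : ℝ, 0 < t ∧ ∀ z ∈ Q, ∑ i, (1 / t) * |z i| ≤ 1 := by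
    obtain ⟨R0, hR0⟩ := hQk.isBounded.exists_norm_le
    refine ⟨(|R0| + 1) * (n + 1), by positivity, ?_⟩
    intro z hz
    calc ∑ i, (1 / ((|R0| + 1) * (n + 1))) * |z i|
        ≤ ∑ _i : Fin n, (1 / ((|R0| + 1) * (n + 1))) * (|R0| + 1) := by
          refine Finset.sum_le_sum fun i _ => mul_le_mul_of_nonneg_left ?_ (by positivity)
          have h1 : |z i| ≤ R0 := le_trans (norm_le_pi_norm z i) (hR0 z hz)
          have h2 := le_abs_self R0
          linarith
      _ = n / (n + 1) := by
          rw [Finset.sum_const, Finset.card_univ, Fintype.card_fin, nsmul_eq_mul]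
          have : (|R0| + 1 : ℝ) ≠ 0 := by positivity
          field_simp
      _ ≤ 1 := by
          rw [div_le_one (by positivity)]
          linarith
  -- weights
  set u : Fin n → ℝ := fun i => if i ∈ A then 1 / (d:ℝ) else 0 with hu
  have hu0 : ∀ i, 0 ≤ u i := by
    intro i
    rw [hu]
    dsimp only
    split_ifs
    · positivity
    · exact le_refl _
  have hu1 : ∑ i, u i ≤ 1 := by
    rw [hu]
    simp only [Finset.sum_ite_mem, Finset.univ_inter, Finset.sum_const, nsmul_eq_mul]
    rw [← hd]
    field_simp
    exact le_refl _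
  obtain ⟨y0, hy0P, hy0, hvar⟩ := var_log_proof hP hPc hPk hPn u (fun _ => t) hu0 hu1 (fun _ => ht.le)
  set β : Fin n → ℝ := fun i => 1 / t + y0 i with hβ
  have hβ0 : ∀ i, 0 < β i := fun i => by
    rw [hβ]
    have := hy0 i
    positivity
  have hPsum : ∀ y ∈ P, ∑ i ∈ A, |y i| / β i ≤ d := by
    intro y hy
    have h := hvar y hy
    have e : ∑ i, u i * (t * |y i|) / (1 + t * y0 i) = (1 / (d:ℝ)) * ∑ i ∈ A, |y i| / β i := by
      rw [Finset.mul_sum, ← Finset.sum_subset (Finset.subset_univ A)]
      · refine Finset.sum_congr rfl fun i hi => ?_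
        have h1 : 1 + t * y0 i ≠ 0 := by
          have := hy0 i
          positivity
        have h2 : 1 / t + y0 i = (1 + t * y0 i) / t := by
          field_simp
        rw [hu, hβ]
        dsimp only
        rw [if_pos hi, h2]
        field_simp
      · intro i _ hi
        rw [hu]
        dsimp only
        rw [if_neg hi]
        simp
    rw [e, one_div, inv_mul_le_iff₀ hdR] at h
    linarith
  obtain ⟨yh, hyhQ, hyh, hvarQ⟩ := var_log_proof hQ hQc hQk hQn u (fun i => d * y0 i) hu0 hu1
    (fun i => mul_nonneg hdR.le (hy0 i))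
  set xt : Fin n → ℝ := fun i => if i ∈ A then y0 i / (1 + d * y0 i * yh i) else 0 with hxt
  have hT0 : ∀ i, 0 < 1 + d * y0 i * yh i := fun i => by
    have h1 := hy0 i
    have h2 := hyh i
    positivity
  have hxt0 : ∀ i, 0 ≤ xt i := by
    intro i
    rw [hxt]
    dsimp only
    split_ifs
    · exact div_nonneg (hy0 i) (hT0 i).le
    · exact le_rfl
  have hQsum : ∀ z ∈ Q, ∑ i, xt i * |z i| ≤ 1 := by
    intro z hz
    have h := hvarQ z hz
    refine le_trans (le_of_eq ?_) h
    refine Finset.sum_congr rfl fun i _ => ?_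
    rw [hxt, hu]
    dsimp only
    split_ifs
    · have h1 := (hT0 i).ne'
      field_simp
    · simp
  -- the integer vectors
  let Sa : Finset (Fin n → ℤ) :=
    (Fintype.piFinset (fun i => if i ∈ A then Finset.Icc (-(d : ℤ)) d else {0})).filter
      (fun a => ∑ i, (a i).natAbs ≤ d)
  let Sl : Finset (Fin n → ℤ) := Fintype.piFinset (fun i => if i ∈ A then
    Finset.Icc (-(⌊1 + d * y0 i * yh i⌋₊ : ℤ)) ⌊1 + d * y0 i * yh i⌋₊ else {0})
  have hSa : Sa.card ≤ 2 ^ d * 3 ^ d := by
    apply count_l1 A d Sa
    · intro a ha i hi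
      have h1 := (Finset.mem_filter.1 ha).1
      rw [Fintype.mem_piFinset] at h1
      have h2 := h1 i
      simpa [hi] using h2
    · intro a ha
      exact (Finset.mem_filter.1 ha).2
  have hSl : Sl.card ≤ 5 ^ d * (6 ^ d * s.card) := by
    have h1 : Sl.card = ∏ i ∈ A, (2 * ⌊1 + d * y0 i * yh i⌋₊ + 1) := by
      dsimp only [Sl]
      rw [Fintype.card_piFinset, ← Finset.prod_subset (Finset.subset_univ A)]
      · apply Finset.prod_congr rfl
        intro i hi
        simp only [hi, if_true, Int.card_Icc]
        omega
      · intro i _ hi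
        simp [hi]
    rw [h1]
    calc ∏ i ∈ A, (2 * ⌊1 + d * y0 i * yh i⌋₊ + 1)
        ≤ ∏ i ∈ A, (5 * (⌊A.card * (y0 i * yh i) / 2⌋₊ + 1)) := by
          refine Finset.prod_le_prod' fun i _ => ?_
          rw [← hd]
          have hw : (0:ℝ) ≤ d * (y0 i * yh i) := by
            have h1 := hy0 i
            have h2 := hyh i
            positivity
          have h3 : ⌊1 + (d:ℝ) * y0 i * yh i⌋₊ ≤ 2 * ⌊(d:ℝ) * (y0 i * yh i) / 2⌋₊ + 2 := by
            have h4 := Nat.lt_floor_add_one ((d:ℝ) * (y0 i * yh i) / 2)
            have h5 : 1 + (d:ℝ) * y0 i * yh i <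
                ((2 * ⌊(d:ℝ) * (y0 i * yh i) / 2⌋₊ + 2 + 1 : ℕ) : ℝ) := by
              push_cast
              linarith
            have h6 := (Nat.floor_lt' (by omega)).2 h5
            omega
          omega
      _ = 5 ^ d * ∏ i ∈ A, (⌊A.card * (y0 i * yh i) / 2⌋₊ + 1) := by
          rw [Finset.prod_mul_distrib, Finset.prod_const]
      _ ≤ 5 ^ d * (6 ^ d * s.card) :=
          Nat.mul_le_mul le_rfl (grid2_proof hP hQ hs A hy0P hy0 hyhQ hyh)
  refine ⟨(Sa ×ˢ Sl).image (fun al i => (al.1 i : ℝ) * β i + (al.2 i : ℝ) * xt i), ?_, ?_⟩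
  · calc _ ≤ (Sa ×ˢ Sl).card := Finset.card_image_le
      _ = Sa.card * Sl.card := Finset.card_product _ _
      _ ≤ (2 ^ d * 3 ^ d) * (5 ^ d * (6 ^ d * s.card)) := Nat.mul_le_mul hSa hSl
      _ = 180 ^ d * s.card := by
          rw [show (180:ℕ) = 2 * 3 * (5 * 6) by norm_num, mul_pow, mul_pow, mul_pow]
          ring
      _ ≤ 256 ^ d * s.card := Nat.mul_le_mul (Nat.pow_le_pow_left (by norm_num) d) le_rfl
  · intro x hx hxA
    -- the first approximation
    let a : Fin n → ℤ := fun i => if i ∈ A then tr (x i / β i) else 0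
    have ha1 : ∑ i, (a i).natAbs ≤ d := by
      have h1 : (∑ i, ((a i).natAbs : ℝ)) ≤ d := by
        calc (∑ i, ((a i).natAbs : ℝ)) ≤ ∑ i ∈ A, |x i| / β i := by
              rw [← Finset.sum_subset (Finset.subset_univ A)]
              · refine Finset.sum_le_sum fun i hi => ?_
                dsimp only [a]
                rw [if_pos hi]
                have h2 := tr_abs_le (x i / β i)
                rw [abs_div, abs_of_pos (hβ0 i)] at h2
                rw [Nat.cast_natAbs]
                push_cast
                exact h2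
              · intro i _ hi
                dsimp only [a]
                rw [if_neg hi]
                simp
          _ ≤ d := hPsum x hx
      exact_mod_cast h1
    have haS : a ∈ Sa := by
      rw [Finset.mem_filter]
      refine ⟨?_, ha1⟩
      rw [Fintype.mem_piFinset]
      intro i
      split_ifs with hi
      · have h2 : (a i).natAbs ≤ d :=
          le_trans (Finset.single_le_sum (f := fun i => (a i).natAbs) (fun _ _ => Nat.zero_le _)
            (Finset.mem_univ i)) ha1
        rw [Finset.mem_Icc]
        omega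
      · dsimp only [a]
        rw [if_neg hi]
        simp
    set e : Fin n → ℝ := fun i => x i - (a i : ℝ) * β i with he
    have heb : ∀ i, |e i| ≤ β i := by
      intro i
      rw [he]
      dsimp only [a]
      split_ifs with hi
      · have h1 := tr_sub_abs_le (x i / β i)
        have h2 : x i - (tr (x i / β i) : ℝ) * β i = (x i / β i - (tr (x i / β i) : ℝ)) * β i := by
          have := (hβ0 i).ne'
          field_simp
        rw [h2, abs_mul, abs_of_pos (hβ0 i)]
        calc _ ≤ 1 * β i := mul_le_mul_of_nonneg_right h1 (hβ0 i).le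
          _ = β i := one_mul _
      · rw [hxA i hi]
        simpa using (hβ0 i).le
    have heA : ∀ i, i ∉ A → e i = 0 := by
      intro i hi
      rw [he]
      dsimp only [a]
      rw [hxA i hi, if_neg hi]
      simp
    set e1 : Fin n → ℝ := fun i => max (-y0 i) (min (e i) (y0 i)) with he1
    have he1b : ∀ i, |e1 i| ≤ y0 i := by
      intro i
      rw [he1]
      dsimp only
      rw [abs_le]
      exact ⟨le_max_left _ _, max_le (by linarith [hy0 i]) (min_le_right _ _)⟩
    have he1d : ∀ i, |e i - e1 i| ≤ 1 / t := by
      intro i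
      have h1 := heb i
      rw [hβ] at h1
      dsimp only at h1
      rw [abs_le] at h1
      rw [he1]
      dsimp only
      have ht' : 0 ≤ 1 / t := by positivity
      have h0 := hy0 i
      rcases le_total (e i) (y0 i) with h2 | h2
      · rw [min_eq_left h2]
        rcases le_total (-y0 i) (e i) with h3 | h3
        · rw [max_eq_right h3]
          simpa using ht'
        · rw [max_eq_left h3, abs_le]
          constructor <;> linarith [h1.1]
      · rw [min_eq_right h2, max_eq_right (by linarith), abs_le]
        constructor <;> linarith [h1.2]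
    have he1A : ∀ i, i ∉ A → e1 i = 0 := by
      intro i hi
      rw [he1]
      dsimp only
      rw [heA i hi, min_eq_left (hy0 i), max_eq_right (by linarith [hy0 i])]
    let l : Fin n → ℤ := fun i => if i ∈ A then tr (e1 i / xt i) else 0
    have hlS : l ∈ Sl := by
      rw [Fintype.mem_piFinset]
      intro i
      split_ifs with hi
      · have h1 : ((l i).natAbs : ℝ) ≤ 1 + d * y0 i * yh i := by
          rw [Nat.cast_natAbs]
          push_cast
          dsimp only [l]
          rw [if_pos hi]
          refine le_trans (tr_abs_le _) ?_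
          rcases eq_or_lt_of_le (hy0 i) with h0 | h0
          · have : xt i = 0 := by
              rw [hxt]
              dsimp only
              rw [if_pos hi, ← h0]
              simp
            rw [this]
            simpa using (hT0 i).le
          · have h2 : xt i = y0 i / (1 + d * y0 i * yh i) := by
              rw [hxt]
              dsimp only
              rw [if_pos hi]
            have h3 : 0 < xt i := by
              rw [h2]
              exact div_pos h0 (hT0 i)
            rw [abs_div, abs_of_pos h3, div_le_iff₀ h3, h2, mul_div_cancel₀ _ (hT0 i).ne']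
            exact he1b i
        have h2 : (l i).natAbs ≤ ⌊1 + (d:ℝ) * y0 i * yh i⌋₊ := Nat.le_floor h1
        rw [Finset.mem_Icc]
        omega
      · dsimp only [l]
        rw [if_neg hi]
        simp
    have hlb : ∀ i, |e1 i - (l i : ℝ) * xt i| ≤ xt i := by
      intro i
      by_cases hi : i ∈ A
      · dsimp only [l]
        rw [if_pos hi]
        rcases eq_or_lt_of_le (hxt0 i) with h0 | h0
        · have h1 : y0 i = 0 := by
            have h2 : xt i = y0 i / (1 + d * y0 i * yh i) := by
              rw [hxt]
              dsimp only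
              rw [if_pos hi]
            rw [h2] at h0
            rcases (div_eq_zero_iff.1 h0.symm) with h3 | h3
            · exact h3
            · exact absurd h3 (hT0 i).ne'
          have h2 : e1 i = 0 := by
            have := he1b i
            rw [h1] at this
            exact abs_nonpos_iff.1 this
          rw [← h0, h2]
          simp
        · have h1 := tr_sub_abs_le (e1 i / xt i)
          have h2 : e1 i - (tr (e1 i / xt i) : ℝ) * xt i =
              (e1 i / xt i - (tr (e1 i / xt i) : ℝ)) * xt i := by
            have := h0.ne'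
            field_simp
          rw [h2, abs_mul, abs_of_pos h0]
          calc _ ≤ 1 * xt i := mul_le_mul_of_nonneg_right h1 h0.le
            _ = xt i := one_mul _
      · dsimp only [l]
        rw [if_neg hi, he1A i hi]
        simpa using hxt0 i
    refine ⟨fun i => (a i : ℝ) * β i + (l i : ℝ) * xt i,
      Finset.mem_image.2 ⟨(a, l), Finset.mem_product.2 ⟨haS, hlS⟩, rfl⟩, ?_⟩
    intro z hz
    calc ∑ i, |(x - fun i => (a i : ℝ) * β i + (l i : ℝ) * xt i) i| * |z i|
        ≤ ∑ i, ((1 / t) * |z i| + xt i * |z i|) := by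
          refine Finset.sum_le_sum fun i _ => ?_
          rw [← add_mul]
          refine mul_le_mul_of_nonneg_right ?_ (abs_nonneg _)
          have h1 : (x - fun i => (a i : ℝ) * β i + (l i : ℝ) * xt i) i =
              (e i - e1 i) + (e1 i - (l i : ℝ) * xt i) := by
            rw [he]
            simp only [Pi.sub_apply]
            ring
          rw [h1]
          exact le_trans (abs_add_le _ _) (add_le_add (he1d i) (hlb i))
      _ = ∑ i, (1 / t) * |z i| + ∑ i, xt i * |z i| := Finset.sum_add_distrib
      _ ≤ 2 := by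
          have h1 := htQ z hz
          have h2 := hQsum z hz
          linarith

end Vale.Agent.H13.ED2
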