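import Vale.Agent.H13.ED2.Code

/-! Row SPARSE. -/

namespace Vale.Agent.H13.ED2

open Pointwise Finset Vale.Agent.H13.ED

variable {n : ℕ}

/-- Row SPARSE (uses CODE) -/
theorem sparse {P Q : Set (Fin n → ℝ)} (hP : Solid P) (hQ : Solid Q) (hQc : Convex ℝ Q)
    (hQk : IsCompact Q) (hQn : Q.Nonempty)
    {s : Finset (Fin n → ℝ)} (hs : Covers Q (polar P) s) {R : ℕ} (hR : 1 ≤ R)
    (hsR : s.card ≤ 2 ^ R) {x : Fin n → ℝ} (hx : x ∈ P) :
    ∃ J : Finset (Fin n), J.card ≤ 8 * R ∧ ∀ z ∈ Q, ∑ i ∈ Jᶜ, |x i| * |z i| ≤ 32 := by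
  classical
  have hRr : (1:ℝ) ≤ R := by exact_mod_cast hR
  have hR0 : (0:ℝ) < R := by linarith
  have hden : ∀ (y : Fin n → ℝ) (i : Fin n), (0:ℝ) < 1 + R * (|x i| * |y i|) := by
    intro y i
    positivity
  have hcont : Continuous (fun y : Fin n → ℝ => ∑ i, (|x i| * |y i|) / (1 + R * (|x i| * |y i|))) := by
    apply continuous_finsetSum
    intro i _
    apply Continuous.div
    · exact continuous_const.mul (continuous_abs.comp (continuous_apply i))
    · exact continuous_const.add (continuous_const.mul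
        (continuous_const.mul (continuous_abs.comp (continuous_apply i))))
    · intro y
      exact (hden y i).ne'
  obtain ⟨ys, hys, hmax⟩ := hQk.exists_isMaxOn hQn hcont.continuousOn
  set w : Fin n → ℝ := fun i => |x i| * |ys i| with hw
  have hw0 : ∀ i, 0 ≤ w i := fun i => by rw [hw]; positivity
  have hcode := code_bound hP hQ hs hR hsR hx hys
  have hfo : ∀ z ∈ Q, ∑ i, (|x i| * |z i|) / (1 + R * w i) ^ 2 ≤ 8 := by
    intro z hz
    set w' : Fin n → ℝ := fun i => |x i| * |z i| with hw'
    have hw'0 : ∀ i, 0 ≤ w' i := fun i => by rw [hw']; positivity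
    set y0 : Fin n → ℝ := fun i => |ys i| with hy0
    set y1 : Fin n → ℝ := fun i => |z i| with hy1
    have hy0Q : y0 ∈ Q := hQ ys hys y0 (fun i => by rw [hy0]; simp)
    have hy1Q : y1 ∈ Q := hQ z hz y1 (fun i => by rw [hy1]; simp)
    have key : ∀ ε : ℝ, 0 < ε → ε < 1 →
        ∑ i, (w' i - w i) / ((1 + R * w i) * (1 + R * (w i + ε * (w' i - w i)))) ≤ 0 := by
      intro ε h0 h1
      have hmem : (fun i => (1 - ε) * y0 i + ε * y1 i) ∈ Q := by
        have := hQc hy0Q hy1Q (show (0:ℝ) ≤ 1 - ε by linarith) h0.le (by ring)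
        convert this using 1
        ext i
        simp
      have h := hmax hmem
      simp only [Set.mem_ofPred_eq] at h
      have e2 : ∀ i, |x i| * |(1 - ε) * y0 i + ε * y1 i| = w i + ε * (w' i - w i) := by
        intro i
        have ea : |(1 - ε) * y0 i + ε * y1 i| = (1 - ε) * y0 i + ε * y1 i := by
          apply abs_of_nonneg
          have := mul_nonneg (show (0:ℝ) ≤ 1 - ε by linarith) (abs_nonneg (ys i))
          have := mul_nonneg h0.le (abs_nonneg (z i))
          simp only [hy0, hy1]
          linarith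
        rw [ea]
        simp only [hw, hw', hy0, hy1]; ring
      simp only [e2] at h
      have h3 : ∑ i, ε * ((w' i - w i) / ((1 + R * w i) * (1 + R * (w i + ε * (w' i - w i)))))
          = ∑ i, (w i + ε * (w' i - w i)) / (1 + R * (w i + ε * (w' i - w i)))
            - ∑ i, w i / (1 + R * w i) := by
        rw [← Finset.sum_sub_distrib]
        apply Finset.sum_congr rfl
        intro i _
        have p1 : (0:ℝ) < 1 + R * w i := hden ys i
        have p2 : (0:ℝ) < 1 + R * (w i + ε * (w' i - w i)) := by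
          have : 0 ≤ w i + ε * (w' i - w i) := by
            have := mul_nonneg (show (0:ℝ) ≤ 1 - ε by linarith) (hw0 i)
            have := mul_nonneg h0.le (hw'0 i)
            nlinarith
          positivity
        rw [div_sub_div _ _ p2.ne' p1.ne', mul_div_assoc',
          div_eq_div_iff (mul_pos p1 p2).ne' (mul_pos p2 p1).ne']
        ring
      have h4 : ε * ∑ i, (w' i - w i) / ((1 + R * w i) * (1 + R * (w i + ε * (w' i - w i)))) ≤ 0 := by
        rw [Finset.mul_sum, h3]
        have e1 : ∑ i, |x i| * |ys i| / (1 + R * (|x i| * |ys i|)) = ∑ i, w i / (1 + R * w i) := rfl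
        linarith
      by_contra hcon
      push Not at hcon
      nlinarith
    have hlim : Filter.Tendsto (fun ε : ℝ =>
        ∑ i, (w' i - w i) / ((1 + R * w i) * (1 + R * (w i + ε * (w' i - w i)))))
        (nhdsWithin 0 (Set.Ioo 0 1)) (nhds (∑ i, (w' i - w i) / (1 + R * w i) ^ 2)) := by
      have : ∑ i, (w' i - w i) / (1 + R * w i) ^ 2
          = ∑ i, (w' i - w i) / ((1 + R * w i) * (1 + R * (w i + 0 * (w' i - w i)))) := by
        apply Finset.sum_congr rfl
        intro i _
        rw [zero_mul, add_zero, pow_two]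
      rw [this]
      apply Filter.Tendsto.mono_left _ nhdsWithin_le_nhds
      apply tendsto_finsetSum
      intro i _
      apply Filter.Tendsto.div tendsto_const_nhds
      · exact Continuous.tendsto (by fun_prop :
          Continuous (fun ε : ℝ => (1 + R * w i) * (1 + R * (w i + ε * (w' i - w i))))) 0
      · have p1 : (0:ℝ) < 1 + R * w i := hden ys i
        simp only [zero_mul, add_zero]
        positivity
    have hfo : ∑ i, (w' i - w i) / (1 + R * w i) ^ 2 ≤ 0 := by
      have : (nhdsWithin (0:ℝ) (Set.Ioo 0 1)).NeBot := by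
        rw [nhdsWithin_Ioo_eq_nhdsGT (by norm_num : (0:ℝ) < 1)]
        infer_instance
      apply le_of_tendsto hlim
      filter_upwards [self_mem_nhdsWithin] with ε hε
      exact key ε hε.1 hε.2
    have h5 : ∑ i, w' i / (1 + R * w i) ^ 2 ≤ ∑ i, w i / (1 + R * w i) ^ 2 := by
      have : ∑ i, (w' i - w i) / (1 + R * w i) ^ 2
          = ∑ i, w' i / (1 + R * w i) ^ 2 - ∑ i, w i / (1 + R * w i) ^ 2 := by
        rw [← Finset.sum_sub_distrib]
        apply Finset.sum_congr rfl
        intro i _
        rw [sub_div]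
      linarith
    have h6 : (R:ℝ) * ∑ i, w i / (1 + R * w i) ^ 2 ≤ ∑ i, min (R * (|x i| * |ys i|)) 1 := by
      rw [Finset.mul_sum]
      apply Finset.sum_le_sum
      intro i _
      have p1 : (0:ℝ) < 1 + R * w i := hden ys i
      have q0 : 0 ≤ (R:ℝ) * w i := mul_nonneg hR0.le (hw0 i)
      have e : |x i| * |ys i| = w i := rfl
      rw [e, ← mul_div_assoc]
      apply le_min
      · rw [div_le_iff₀ (by positivity)]
        have : 1 ≤ (1 + (R:ℝ) * w i) ^ 2 := by nlinarith
        nlinarith
      · rw [div_le_one (by positivity)]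
        nlinarith
    have h7 : (R:ℝ) * ∑ i, w i / (1 + R * w i) ^ 2 ≤ R * 8 := by linarith
    have h8 := le_of_mul_le_mul_left h7 hR0
    linarith
  set J : Finset (Fin n) := univ.filter (fun i => 1 ≤ (R:ℝ) * w i) with hJ
  refine ⟨J, ?_, ?_⟩
  · have h1 : (J.card : ℝ) ≤ 8 * R := by
      refine le_trans ?_ hcode
      calc (J.card : ℝ) = ∑ i ∈ J, (1:ℝ) := by simp
        _ ≤ ∑ i ∈ J, min (R * (|x i| * |ys i|)) 1 := by
            apply Finset.sum_le_sum
            intro i hi
            rw [hJ, Finset.mem_filter] at hi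
            exact le_min hi.2 le_rfl
        _ ≤ ∑ i, min (R * (|x i| * |ys i|)) 1 := by
            apply Finset.sum_le_sum_of_subset_of_nonneg (Finset.subset_univ _)
            intro i _ _
            exact le_min (by positivity) zero_le_one
    exact_mod_cast h1
  · intro z hz
    have h1 : ∑ i ∈ Jᶜ, |x i| * |z i| ≤ ∑ i ∈ Jᶜ, 4 * ((|x i| * |z i|) / (1 + R * w i) ^ 2) := by
      apply Finset.sum_le_sum
      intro i hi
      rw [Finset.mem_compl, hJ, Finset.mem_filter] at hi
      have h2 : (R:ℝ) * w i < 1 := by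
        by_contra h
        exact hi ⟨Finset.mem_univ _, not_lt.mp h⟩
      have q0 : 0 ≤ (R:ℝ) * w i := mul_nonneg hR0.le (hw0 i)
      have h3 : (1 + (R:ℝ) * w i) ^ 2 ≤ 4 := by nlinarith
      have h4 : 0 < (1 + (R:ℝ) * w i) ^ 2 := by positivity
      have h5 : 0 ≤ |x i| * |z i| := by positivity
      rw [mul_div_assoc', le_div_iff₀ h4]
      nlinarith
    have h2 : ∑ i ∈ Jᶜ, 4 * ((|x i| * |z i|) / (1 + R * w i) ^ 2)
        ≤ ∑ i, 4 * ((|x i| * |z i|) / (1 + R * w i) ^ 2) := by
      apply Finset.sum_le_sum_of_subset_of_nonneg (Finset.subset_univ _)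
      intro i _ _
      positivity
    rw [← Finset.mul_sum (s := univ)] at h2
    have h3 := hfo z hz
    linarith

end Vale.Agent.H13.ED2
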