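import Vale.Agent.H13.ED2.Opt3
import Vale.Agent.H13.ED2.Sparse
import Vale.Agent.H13.ED2.LowDim

/-! Assembly of the duality theorem for pairs of bodies unconditional in the same basis. -/

namespace Vale.Agent.H13.ED2

open Pointwise Finset Vale.Agent.H13.ED

variable {n : ℕ}

/-- separated sets -/
def Sep (P Q : Set (Fin n → ℝ)) (X : Finset (Fin n → ℝ)) : Prop :=
  (∀ x ∈ X, x ∈ P) ∧ ∀ x ∈ X, ∀ x' ∈ X, x ≠ x' → ∃ z ∈ Q, 14404 < ∑ i, |(x - x') i| * |z i|

open Classical in
theorem sep_card {P Q : Set (Fin n → ℝ)} (hP : Solid P) (hPc : Convex ℝ P) (hPk : IsCompact P)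
    (hPn : P.Nonempty) (hQ : Solid Q) (hQc : Convex ℝ Q) (hQk : IsCompact Q) (hQn : Q.Nonempty)
    {s : Finset (Fin n → ℝ)} (hs : Covers Q (polar P) s) (hM : 2 ≤ s.card)
    (X : Finset (Fin n → ℝ)) (hX : Sep P Q X) : X.card ≤ s.card ^ 7814 := by
  rcases X.eq_empty_or_nonempty with hXe | hXne
  · rw [hXe, Finset.card_empty]
    exact Nat.zero_le _
  set R := Nat.clog 2 s.card with hRdef
  have hR : 1 ≤ R := Nat.clog_pos (by norm_num) hM
  have hsR : s.card ≤ 2 ^ R := Nat.le_pow_clog (by norm_num) _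
  have hRM : 2 ^ R ≤ s.card ^ 2 := by
    have h1 : 2 ^ (R - 1) < s.card := Nat.pow_pred_clog_lt_self (by norm_num) (by omega)
    have h2 : 2 ^ R = 2 ^ (R - 1) * 2 := by
      rw [← pow_succ]
      congr 1
      omega
    rw [h2]
    nlinarith
  have : Nonempty X := hXne.to_subtype
  have hsp := fun k : X => sparse hP hQ hQc hQk hQn hs hR hsR (hX.1 k.1 k.2)
  choose J hJ hJz using hsp
  obtain ⟨𝒜, h𝒜c, h𝒜g⟩ := few_sets hP hQ hQc hQk hQn hs hR hsR (fun k : X => k.1)
    (fun k => hX.1 k.1 k.2) J hJ hJz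
  have hld := fun A => lowdim' hP hPc hPk hPn hQ hQc hQk hQn hs (by omega) A
  choose sA hsA1 hsA2 using hld
  set 𝒜' := 𝒜.filter (fun A => A.card ≤ 8 * R) with h𝒜'
  set C := 𝒜'.biUnion sA with hC
  have hCc : C.card ≤ 2 ^ (3841 * R) * (2 ^ (64 * R) * 2 ^ R) := by
    calc C.card ≤ ∑ A ∈ 𝒜', (sA A).card := Finset.card_biUnion_le
      _ ≤ ∑ A ∈ 𝒜', (2 ^ (64 * R) * 2 ^ R) := by
          apply Finset.sum_le_sum
          intro A hA
          have h1 := (Finset.mem_filter.1 hA).2
          calc (sA A).card ≤ 256 ^ A.card * s.card := hsA1 A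
            _ ≤ 256 ^ (8 * R) * 2 ^ R := Nat.mul_le_mul (Nat.pow_le_pow_right (by norm_num) h1) hsR
            _ = 2 ^ (64 * R) * 2 ^ R := by
                rw [show (256:ℕ) = 2 ^ 8 by norm_num, ← pow_mul]
                congr 2
                ring
      _ = 𝒜'.card * (2 ^ (64 * R) * 2 ^ R) := by rw [Finset.sum_const, smul_eq_mul]
      _ ≤ _ := Nat.mul_le_mul_right _ (le_trans (Finset.card_filter_le _ _) h𝒜c)
  unfold GoodFam at h𝒜g
  set G := (Finset.univ.filter (fun k : X => ∃ A ∈ 𝒜, A ⊆ J k ∧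
    ∀ z ∈ Q, ∑ i ∈ Aᶜ, |k.1 i| * |z i| ≤ 7200)) with hG
  have hcen : ∀ k : X, ∃ c : Fin n → ℝ, k ∈ G → (c ∈ C ∧
      ∀ z ∈ Q, ∑ i, |(k.1 - c) i| * |z i| ≤ 7202) := by
    intro k
    by_cases hk : k ∈ G
    · obtain ⟨A, hA𝒜, hAJ, hAz⟩ := (Finset.mem_filter.1 hk).2
      set xA : Fin n → ℝ := fun i => if i ∈ A then k.1 i else 0 with hxA
      have hxAP : xA ∈ P := by
        apply hP k.1 (hX.1 k.1 k.2)
        intro i
        rw [hxA]
        dsimp only
        split_ifs
        · exact le_refl _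
        · simp
      obtain ⟨c, hc, hcz⟩ := hsA2 A xA hxAP (fun i hi => by rw [hxA]; simp [hi])
      refine ⟨c, fun _ => ⟨?_, ?_⟩⟩
      · rw [hC, Finset.mem_biUnion]
        refine ⟨A, ?_, hc⟩
        rw [h𝒜', Finset.mem_filter]
        exact ⟨hA𝒜, le_trans (Finset.card_le_card hAJ) (hJ k)⟩
      · intro z hz
        have h1 := hcz z hz
        have h2 := hAz z hz
        have h3 : ∑ i ∈ Aᶜ, |k.1 i| * |z i| = ∑ i, if i ∈ Aᶜ then |k.1 i| * |z i| else 0 := by
          rw [Finset.sum_ite_mem, Finset.univ_inter]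
        rw [h3] at h2
        have h4 : ∑ i, |(k.1 - c) i| * |z i| ≤ ∑ i, (|(xA - c) i| * |z i| +
            if i ∈ Aᶜ then |k.1 i| * |z i| else 0) := by
          apply Finset.sum_le_sum
          intro i _
          by_cases hi : i ∈ A
          · have h5 : xA i = k.1 i := by rw [hxA]; simp [hi]
            have h6 : i ∉ Aᶜ := fun h => (Finset.mem_compl.1 h) hi
            simp only [Pi.sub_apply, h5, h6, if_false, add_zero]
            exact le_refl _
          · have h5 : xA i = 0 := by rw [hxA]; simp [hi]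
            have h6 : i ∈ Aᶜ := Finset.mem_compl.2 hi
            simp only [Pi.sub_apply, h5, h6, if_true]
            rw [← add_mul]
            apply mul_le_mul_of_nonneg_right _ (abs_nonneg _)
            rw [zero_sub, abs_neg, add_comm]
            exact abs_sub _ _
        rw [Finset.sum_add_distrib] at h4
        linarith
    · exact ⟨0, fun h => absurd h hk⟩
  choose cen hcen using hcen
  have hGC : G.card ≤ C.card := by
    apply Finset.card_le_card_of_injOn cen
    · intro k hk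
      exact (hcen k hk).1
    · intro k hk k' hk' hkk
      by_contra hne
      have hne' : k.1 ≠ k'.1 := fun h => hne (Subtype.ext h)
      obtain ⟨z, hz, hz1⟩ := hX.2 k.1 k.2 k'.1 k'.2 hne'
      have h1 := (hcen k hk).2 z hz
      have h2 := (hcen k' hk').2 z hz
      rw [← hkk] at h2
      have h3 : ∑ i, |(k.1 - k'.1) i| * |z i| ≤ ∑ i, (|(k.1 - cen k) i| * |z i| +
          |(k'.1 - cen k) i| * |z i|) := by
        apply Finset.sum_le_sum
        intro i _
        rw [← add_mul]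
        apply mul_le_mul_of_nonneg_right _ (abs_nonneg _)
        have : (k.1 - k'.1) i = (k.1 - cen k) i - (k'.1 - cen k) i := by simp
        rw [this]
        exact abs_sub _ _
      rw [Finset.sum_add_distrib] at h3
      linarith
  rw [Fintype.card_coe] at h𝒜g
  calc X.card ≤ 2 * G.card := h𝒜g
    _ ≤ 2 * (2 ^ (3841 * R) * (2 ^ (64 * R) * 2 ^ R)) :=
        Nat.mul_le_mul_left _ (le_trans hGC hCc)
    _ = 2 ^ (3906 * R + 1) := by
        rw [← pow_add, ← pow_add, mul_comm, ← pow_succ]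
        congr 1
        ring
    _ ≤ 2 ^ (3907 * R) := Nat.pow_le_pow_right (by norm_num) (by omega)
    _ = (2 ^ R) ^ 3907 := by rw [← pow_mul]; congr 1; ring
    _ ≤ (s.card ^ 2) ^ 3907 := Nat.pow_le_pow_left hRM _
    _ = s.card ^ 7814 := by rw [← pow_mul]

open Classical in
theorem exists_max_sep (P Q : Set (Fin n → ℝ)) (K : ℕ) (h : ∀ X, Sep P Q X → X.card ≤ K) :
    ∃ X, Sep P Q X ∧ ∀ Y, Sep P Q Y → Y.card ≤ X.card := by
  by_contra hcon
  push Not at hcon
  have key : ∀ j : ℕ, ∃ X, Sep P Q X ∧ j ≤ X.card := by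
    intro j
    induction j with
    | zero => exact ⟨∅, ⟨by simp, by simp⟩, Nat.zero_le _⟩
    | succ j ih =>
      obtain ⟨X, hX, hj⟩ := ih
      obtain ⟨Y, hY, hXY⟩ := hcon X hX
      exact ⟨Y, hY, by omega⟩
  obtain ⟨X, hX, hj⟩ := key (K + 1)
  have := h X hX
  omega

open Classical in
theorem cover_of_sep {P Q : Set (Fin n → ℝ)} (K : ℕ) (h : ∀ X, Sep P Q X → X.card ≤ K) :
    ∃ X : Finset (Fin n → ℝ), X.card ≤ K ∧ Covers P ((14404:ℝ) • polar Q) X := by
  obtain ⟨X, hX, hmax⟩ := exists_max_sep P Q K h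
  refine ⟨X, h X hX, ?_⟩
  rw [covers_iff]
  intro p hp
  by_contra hcon
  push Not at hcon
  have hz : ∀ x ∈ X, ∃ z ∈ Q, 14404 < ∑ i, |(p - x) i| * |z i| := by
    intro x hx
    have h1 := hcon x hx
    rw [mem_smul_polar (by norm_num)] at h1
    push Not at h1
    obtain ⟨z, hz, hz1⟩ := h1
    refine ⟨z, hz, lt_of_lt_of_le hz1 ?_⟩
    apply Finset.sum_le_sum
    intro i _
    rw [← abs_mul, mul_comm]
    exact le_abs_self _
  have hpX : p ∉ X := by
    intro hpX
    obtain ⟨z, -, hz1⟩ := hz p hpX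
    simp at hz1
    linarith
  have hsep : Sep P Q (insert p X) := by
    refine ⟨?_, ?_⟩
    · intro x hx
      rcases Finset.mem_insert.1 hx with rfl | hx
      · exact hp
      · exact hX.1 x hx
    · intro x hx x' hx' hne
      rcases Finset.mem_insert.1 hx with hxp | hx2
      · rcases Finset.mem_insert.1 hx' with hxp' | hx2'
        · exact absurd (hxp.trans hxp'.symm) hne
        · rw [hxp]
          exact hz x' hx2'
      · rcases Finset.mem_insert.1 hx' with hxp' | hx2'
        · obtain ⟨z, hzQ, hz1⟩ := hz x hx2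
          refine ⟨z, hzQ, ?_⟩
          rw [hxp']
          have : ∀ i, |(x - p) i| = |(p - x) i| := by
            intro i
            simp only [Pi.sub_apply]
            exact abs_sub_comm _ _
          simp only [this]
          exact hz1
        · exact hX.2 x hx2 x' hx2' hne
  have := hmax _ hsep
  rw [Finset.card_insert_of_notMem hpX] at this
  omega

theorem core_duality {P Q : Set (Fin n → ℝ)} (hP : Solid P) (hPc : Convex ℝ P)
    (hPk : IsCompact P) (hPn : P.Nonempty) (hQ : Solid Q) (hQc : Convex ℝ Q) (hQk : IsCompact Q)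
    (hQn : Q.Nonempty) {s : Finset (Fin n → ℝ)} (hs : Covers Q (polar P) s) :
    ∃ s' : Finset (Fin n → ℝ), s'.card ≤ s.card ^ 7814 ∧ Covers P ((14404:ℝ) • polar Q) s' := by
  rcases Nat.lt_or_ge s.card 2 with h | h
  · have hs' := hs
    rw [covers_iff] at hs'
    have h1 : s.card = 1 := by
      obtain ⟨y, hy⟩ := hQn
      obtain ⟨c, hc, -⟩ := hs' y hy
      have := Finset.card_pos.2 ⟨c, hc⟩
      omega
    obtain ⟨c, rfl⟩ := Finset.card_eq_one.1 h1
    refine ⟨{0}, by simp, ?_⟩
    rw [covers_iff]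
    intro x hx
    refine ⟨0, Finset.mem_singleton_self _, ?_⟩
    rw [sub_zero, mem_smul_polar (by norm_num)]
    intro y hy
    obtain ⟨c1, hc1, h2⟩ := hs' y hy
    have hny : -y ∈ Q := hQ y hy (-y) (fun i => by simp)
    obtain ⟨c2, hc2, h3⟩ := hs' (-y) hny
    rw [Finset.mem_singleton] at hc1 hc2
    subst hc1
    subst hc2
    have h4 := two_point hP hx h2 h3
    have h5 : ∑ i, |x i| * |y i - (-y) i| = 2 * ∑ i, |x i| * |y i| := by
      rw [Finset.mul_sum]
      apply Finset.sum_congr rfl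
      intro i _
      simp only [Pi.neg_apply, sub_neg_eq_add]
      rw [← two_mul, abs_mul, abs_of_pos (by norm_num : (0:ℝ) < 2)]
      ring
    have h6 : ∑ i, y i * x i ≤ ∑ i, |x i| * |y i| := by
      apply Finset.sum_le_sum
      intro i _
      rw [← abs_mul, mul_comm]
      exact le_abs_self _
    linarith
  · exact cover_of_sep _ (fun X hX => sep_card hP hPc hPk hPn hQ hQc hQk hQn hs h X hX)

section std

variable {U V : Set (Fin n → ℝ)} (hU : Solid U) (hUc : Convex ℝ U) (hUk : IsCompact U)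
  (hU0 : (0 : Fin n → ℝ) ∈ interior U) (hV : Solid V) (hVc : Convex ℝ V) (hVk : IsCompact V)
  (hV0 : (0 : Fin n → ℝ) ∈ interior V)

include hU hUc hUk hU0 hV hVc hVk hV0

theorem std1 : coveringNumber (polar V) ((14404:ℝ) • polar U) ≤
    (coveringNumber U V) ^ 7814 := by
  obtain ⟨s, hs, hc⟩ := exists_covers_card hUk.isBounded ⟨0, hV0⟩
  obtain ⟨s', hs', hc'⟩ := core_duality (P := polar V) (Q := U) (polar_solid hV) (polar_convex V)
    (polar_compact hV hVc hVk hV0) ⟨0, zero_mem_polar V⟩ hU hUc hUk ⟨0, interior_subset hU0⟩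
    (s := s) (by rw [bipolar hVc hVk.isClosed (interior_subset hV0)]; exact hc)
  rw [← hs]
  exact le_trans (coveringNumber_le hc') hs'

theorem std2 : coveringNumber U V ≤
    (coveringNumber (polar V) ((14404:ℝ)⁻¹ • polar U)) ^ 7814 := by
  have hint : (interior ((14404:ℝ)⁻¹ • polar U)).Nonempty := by
    refine ⟨(14404:ℝ)⁻¹ • 0, ?_⟩
    rw [interior_smul₀ (by norm_num : (14404:ℝ)⁻¹ ≠ 0)]
    exact Set.smul_mem_smul_set (polar_interior hUk.isBounded)
  obtain ⟨s, hs, hc⟩ := exists_covers_card (polar_bounded hV0) hint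
  have h1 := covers_smul hc 14404
  rw [smul_smul, mul_inv_cancel₀ (by norm_num : (14404:ℝ) ≠ 0), one_smul] at h1
  obtain ⟨s', hs', hc'⟩ := core_duality (P := U) (Q := (14404:ℝ) • polar V) hU hUc hUk
    ⟨0, interior_subset hU0⟩ (solid_smul (polar_solid hV) (by norm_num))
    ((polar_convex V).smul 14404) ((polar_compact hV hVc hVk hV0).smul 14404)
    ⟨0, 0, zero_mem_polar V, by simp⟩ h1
  rw [polar_smul (by norm_num), bipolar hVc hVk.isClosed (interior_subset hV0), smul_smul,
    mul_inv_cancel₀ (by norm_num : (14404:ℝ) ≠ 0), one_smul] at hc'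
  calc coveringNumber U V ≤ s'.card := coveringNumber_le hc'
    _ ≤ (s.image (fun x => (14404:ℝ) • x)).card ^ 7814 := hs'
    _ ≤ s.card ^ 7814 := Nat.pow_le_pow_left Finset.card_image_le _
    _ = _ := by rw [hs]

end std

end Vale.Agent.H13.ED2
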