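import Vale.Agent.H13.ED.Final

/-! Row CODE. -/

namespace Vale.Agent.H13.ED2

open Pointwise Finset Vale.Agent.H13.ED

variable {n : ℕ}

theorem one_add_exp_le {u : ℝ} (h1 : u ≤ 1) (h0 : 0 ≤ u) :
    1 + Real.exp (-u) ≤ 2 * Real.exp (-(u / 4)) := by
  set v := Real.exp (-(u / 4)) with hv
  have e : Real.exp (-u) = v ^ 4 := by
    rw [hv, ← Real.exp_nat_mul]
    congr 1
    push_cast
    ring
  have hv1 : v ≤ 1 := by
    rw [hv]
    exact Real.exp_le_one_iff.mpr (by linarith)
  have hv2 : 3 / 4 ≤ v := by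
    have := Real.add_one_le_exp (-(u / 4))
    rw [← hv] at this
    linarith
  rw [e]
  have h3 : 0 ≤ v ^ 3 + v ^ 2 + v - 1 := by nlinarith [sq_nonneg v, pow_nonneg (by linarith : (0:ℝ) ≤ v) 3]
  nlinarith [mul_nonneg (show 0 ≤ 1 - v by linarith) h3]

/-- Row CODE -/
theorem code_bound {P Q : Set (Fin n → ℝ)} (hP : Solid P) (hQ : Solid Q)
    {s : Finset (Fin n → ℝ)} (hs : Covers Q (polar P) s) {R : ℕ} (hR : 1 ≤ R)
    (hsR : s.card ≤ 2 ^ R) {x y : Fin n → ℝ} (hx : x ∈ P) (hy : y ∈ Q) :
    ∑ i, min (R * (|x i| * |y i|)) 1 ≤ 8 * R := by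
  classical
  rw [covers_iff] at hs
  set u : Fin n → ℝ := fun i => min (R * (|x i| * |y i|)) 1 with hu
  have hu0 : ∀ i, 0 ≤ u i := fun i => le_min (by positivity) zero_le_one
  have hu1 : ∀ i, u i ≤ 1 := fun i => min_le_right _ _
  let yy : Finset (Fin n) → (Fin n → ℝ) := fun A i => if i ∈ A then |y i| else -|y i|
  have hyy : ∀ A, yy A ∈ Q := by
    intro A
    apply hQ y hy
    intro i
    dsimp only [yy]
    split_ifs <;> simp
  choose c hc1 hc2 using fun A : Finset (Fin n) => hs (yy A) (hyy A)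
  have hsame : ∀ A B : Finset (Fin n), c A = c B → ∑ i ∈ symmDiff A B, u i ≤ R := by
    intro A B hAB
    have h1 := hc2 A
    have h2 := hc2 B
    rw [hAB] at h1
    have h3 := two_point hP hx h1 h2
    have h4 : ∑ i ∈ symmDiff A B, u i ≤ ∑ i, (R : ℝ) / 2 * (|x i| * |yy A i - yy B i|) := by
      rw [← Finset.sum_subset (Finset.subset_univ (symmDiff A B)) ?_]
      · apply Finset.sum_le_sum
        intro i hi
        rw [Finset.mem_symmDiff] at hi
        have h5 : |yy A i - yy B i| = 2 * |y i| := by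
          dsimp only [yy]
          rcases hi with ⟨h6, h7⟩ | ⟨h6, h7⟩
          · rw [if_pos h6, if_neg h7, sub_neg_eq_add, ← two_mul, abs_mul, abs_abs, abs_two]
          · rw [if_neg h7, if_pos h6, ← neg_add', abs_neg, ← two_mul, abs_mul, abs_abs, abs_two]
        rw [h5]
        calc u i ≤ R * (|x i| * |y i|) := min_le_left _ _
          _ = _ := by ring
      · intro i _ hi
        rw [Finset.mem_symmDiff] at hi
        have h5 : yy A i = yy B i := by
          dsimp only [yy]
          by_cases h6 : i ∈ A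
          · have h7 : i ∈ B := by
              by_contra h; exact hi (Or.inl ⟨h6, h⟩)
            rw [if_pos h6, if_pos h7]
          · have h7 : i ∉ B := by
              intro h; exact hi (Or.inr ⟨h, h6⟩)
            rw [if_neg h6, if_neg h7]
        rw [h5]; simp
    rw [← Finset.mul_sum] at h4
    have hR0 : (0:ℝ) ≤ (R:ℝ) / 2 := by positivity
    nlinarith
  set U : ℝ := ∑ i, u i with hU
  -- number of admissible differences
  have hcount : ((univ.filter (fun D : Finset (Fin n) => ∑ i ∈ D, u i ≤ R)).card : ℝ)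
      ≤ Real.exp R * (2 ^ n * Real.exp (-(U / 4))) := by
    calc ((univ.filter (fun D : Finset (Fin n) => ∑ i ∈ D, u i ≤ R)).card : ℝ)
        = ∑ D with ∑ i ∈ D, u i ≤ R, (1 : ℝ) := by simp
      _ ≤ ∑ D with ∑ i ∈ D, u i ≤ R, Real.exp (R - ∑ i ∈ D, u i) := by
          apply Finset.sum_le_sum
          intro D hD
          rw [Finset.mem_filter] at hD
          exact Real.one_le_exp (by linarith [hD.2])
      _ ≤ ∑ D : Finset (Fin n), Real.exp (R - ∑ i ∈ D, u i) :=
          Finset.sum_le_sum_of_subset_of_nonneg (Finset.filter_subset _ _)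
            (fun _ _ _ => (Real.exp_pos _).le)
      _ = Real.exp R * ∑ D : Finset (Fin n), ∏ i ∈ D, Real.exp (-u i) := by
          rw [Finset.mul_sum]
          apply Finset.sum_congr rfl
          intro D _
          rw [← Real.exp_sum, ← Real.exp_add, Finset.sum_neg_distrib]
          congr 1
      _ = Real.exp R * ∏ i : Fin n, (1 + Real.exp (-u i)) := by
          rw [Finset.prod_one_add]
          simp
      _ ≤ Real.exp R * ∏ i : Fin n, (2 * Real.exp (-(u i / 4))) := by
          apply mul_le_mul_of_nonneg_left _ (Real.exp_pos _).le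
          apply Finset.prod_le_prod
          · intro i _
            positivity
          · intro i _
            exact one_add_exp_le (hu1 i) (hu0 i)
      _ = _ := by
          rw [Finset.prod_mul_distrib, ← Real.exp_sum]
          simp only [Finset.prod_const, Finset.card_univ, Fintype.card_fin]
          rw [Finset.sum_neg_distrib, ← Finset.sum_div]
  have hfib : ∀ b ∈ s, (univ.filter (fun A : Finset (Fin n) => c A = b)).card
      ≤ (univ.filter (fun D : Finset (Fin n) => ∑ i ∈ D, u i ≤ R)).card := by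
    intro b _
    rcases (univ.filter (fun A : Finset (Fin n) => c A = b)).eq_empty_or_nonempty with h | ⟨A0, hA0⟩
    · rw [h]; simp
    · rw [Finset.mem_filter] at hA0
      apply Finset.card_le_card_of_injOn (fun A => symmDiff A0 A)
      · intro A hA
        rw [Finset.coe_filter, Set.mem_ofPred_eq] at hA
        rw [Finset.coe_filter, Set.mem_ofPred_eq]
        exact ⟨Finset.mem_univ _, hsame A0 A (hA0.2.trans hA.2.symm)⟩
      · intro A _ B _ h
        exact symmDiff_right_injective A0 h
  have htot : (2:ℝ) ^ n ≤ s.card * (Real.exp R * (2 ^ n * Real.exp (-(U / 4)))) := by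
    have h1 : (univ : Finset (Finset (Fin n))).card
        = ∑ b ∈ s, (univ.filter (fun A : Finset (Fin n) => c A = b)).card :=
      Finset.card_eq_sum_card_fiberwise (fun A _ => hc1 A)
    have h2 : (univ : Finset (Finset (Fin n))).card
        ≤ s.card * (univ.filter (fun D : Finset (Fin n) => ∑ i ∈ D, u i ≤ R)).card := by
      rw [h1]
      calc _ ≤ ∑ _b ∈ s, (univ.filter (fun D : Finset (Fin n) => ∑ i ∈ D, u i ≤ R)).card :=
            Finset.sum_le_sum hfib
        _ = _ := by rw [Finset.sum_const, smul_eq_mul]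
    have h3 : (univ : Finset (Finset (Fin n))).card = 2 ^ n := by simp
    rw [h3] at h2
    have h4 : ((2 ^ n : ℕ) : ℝ)
        ≤ s.card * ((univ.filter (fun D : Finset (Fin n) => ∑ i ∈ D, u i ≤ R)).card : ℝ) := by
      exact_mod_cast h2
    push_cast at h4
    refine h4.trans ?_
    apply mul_le_mul_of_nonneg_left _ (Nat.cast_nonneg _)
    exact hcount
  have hsR' : (s.card : ℝ) ≤ 2 ^ R := by exact_mod_cast hsR
  have h2n : (0:ℝ) < 2 ^ n := by positivity
  have h5 : 1 ≤ (2:ℝ) ^ R * (Real.exp R * Real.exp (-(U / 4))) := by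
    have h6 : (s.card : ℝ) * (Real.exp R * (2 ^ n * Real.exp (-(U / 4))))
        ≤ 2 ^ R * (Real.exp R * (2 ^ n * Real.exp (-(U / 4)))) :=
      mul_le_mul_of_nonneg_right hsR' (by positivity)
    have h7 : (2:ℝ) ^ n * 1 ≤ 2 ^ n * (2 ^ R * (Real.exp R * Real.exp (-(U / 4)))) := by
      rw [mul_one]
      calc (2:ℝ) ^ n ≤ _ := htot
        _ ≤ _ := h6
        _ = _ := by ring
    exact le_of_mul_le_mul_left h7 h2n
  have h8 : (2:ℝ) ^ R ≤ Real.exp R := by
    have h9 : (2:ℝ) ≤ Real.exp 1 := by
      have := Real.add_one_le_exp (1:ℝ); linarith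
    calc (2:ℝ) ^ R ≤ (Real.exp 1) ^ R := pow_le_pow_left₀ (by norm_num) h9 R
      _ = Real.exp R := by rw [← Real.exp_nat_mul, mul_one]
  have h10 : 1 ≤ Real.exp (R + (R + -(U / 4))) := by
    rw [Real.exp_add, Real.exp_add]
    refine h5.trans ?_
    apply mul_le_mul_of_nonneg_right h8 (by positivity)
  have h11 := Real.one_le_exp_iff.mp h10
  show U ≤ 8 * R
  linarith

end Vale.Agent.H13.ED2
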