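import Mathlib

/-! Row INFO: information weights of an arbitrary finite family of sets (with multiplicity).
Same proof as `Vale.Agent.H13.ED.info` (file ED/Info.lean), by induction on the ground set. -/

namespace Vale.Agent.H13.ED2

open Finset

variable {α β : Type*} [DecidableEq α]

theorem info2_sumA {g : α} {B J' : Finset α} (hgx : g ∉ B) {w : ℝ} (I0 I1 : α → ℝ) :
    (∑ i ∈ B ∩ J', (if g ∈ B then (if i = g then w else I1 i) else I0 i)) =
      ∑ i ∈ B ∩ J'.erase g, I0 i := by
  simp only [hgx, if_false]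
  have : B ∩ J' = B ∩ J'.erase g := by
    ext i
    simp only [Finset.mem_inter, Finset.mem_erase]
    constructor
    · rintro ⟨h, h'⟩
      exact ⟨h, fun hi => hgx (hi ▸ h), h'⟩
    · rintro ⟨h, h', h''⟩
      exact ⟨h, h''⟩
  rw [this]

theorem info2_sumB {g : α} {B J' : Finset α} (hgx : g ∈ B) {w : ℝ} (I0 I1 : α → ℝ) :
    (∑ i ∈ B ∩ J', (if g ∈ B then (if i = g then w else I1 i) else I0 i)) =
      (if g ∈ J' then w else 0) + ∑ i ∈ B.erase g ∩ J'.erase g, I1 i := by
  simp only [hgx, if_true]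
  by_cases hgJ' : g ∈ J'
  · have : B ∩ J' = insert g (B.erase g ∩ J'.erase g) := by
      ext i
      simp only [Finset.mem_inter, Finset.mem_insert, Finset.mem_erase]
      constructor
      · rintro ⟨h, h'⟩
        by_cases hi : i = g
        · left; exact hi
        · right; exact ⟨⟨hi, h⟩, hi, h'⟩
      · rintro (rfl | ⟨⟨h0, h⟩, h', h''⟩)
        · exact ⟨hgx, hgJ'⟩
        · exact ⟨h, h''⟩
    rw [this, Finset.sum_insert (by simp)]
    simp only [hgJ', if_true]
    congr 1
    apply Finset.sum_congr rfl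
    intro i hi
    have : i ≠ g := by
      rintro rfl
      simp at hi
    simp [this]
  · have : B ∩ J' = B.erase g ∩ J'.erase g := by
      ext i
      simp only [Finset.mem_inter, Finset.mem_erase]
      constructor
      · rintro ⟨h, h'⟩
        exact ⟨⟨fun hi => hgJ' (hi ▸ h'), h⟩, fun hi => hgJ' (hi ▸ h'), h'⟩
      · rintro ⟨⟨h0, h⟩, h', h''⟩
        exact ⟨h, h''⟩
    rw [this]
    simp only [hgJ', if_false, zero_add]
    apply Finset.sum_congr rfl
    intro i hi
    have : i ≠ g := by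
      rintro rfl
      simp at hi
    simp [this]

theorem info2_F1 {g : α} {X X0 X1 : Finset β} {A : β → Finset α}
    (hg0 : ∀ x ∈ X0, g ∉ A x) (hg1 : ∀ x ∈ X1, g ∈ A x)
    (hsum : ∀ f : β → ℝ, ∑ x ∈ X, f x = ∑ x ∈ X0, f x + ∑ x ∈ X1, f x)
    (hcR : (X.card : ℝ) = X0.card + X1.card) (hc1 : (0 : ℝ) < X1.card) {w : ℝ}
    (hexpw : Real.exp w = X.card / X1.card) {I0 I1 : β → α → ℝ}
    (hF0 : ∀ J' : Finset α, ∑ x ∈ X0, Real.exp (∑ i ∈ A x ∩ J', I0 x i) ≤
      X0.card * 2 ^ J'.card)
    (hF1 : ∀ J' : Finset α, ∑ x ∈ X1, Real.exp (∑ i ∈ (A x).erase g ∩ J', I1 x i) ≤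
      X1.card * 2 ^ J'.card) (J' : Finset α) :
    ∑ x ∈ X, Real.exp (∑ i ∈ A x ∩ J',
      (if g ∈ A x then (if i = g then w else I1 x i) else I0 x i)) ≤ X.card * 2 ^ J'.card := by
  have hc0 : (0 : ℝ) ≤ X0.card := Nat.cast_nonneg _
  have hc : (0 : ℝ) < X.card := by rw [hcR]; linarith
  rw [hsum]
  have hA : ∑ x ∈ X0, Real.exp (∑ i ∈ A x ∩ J',
      (if g ∈ A x then (if i = g then w else I1 x i) else I0 x i)) =
      ∑ x ∈ X0, Real.exp (∑ i ∈ A x ∩ J'.erase g, I0 x i) := by
    apply Finset.sum_congr rfl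
    intro x hx
    rw [info2_sumA (hg0 x hx)]
  have hC : ∑ x ∈ X1, Real.exp (∑ i ∈ A x ∩ J',
      (if g ∈ A x then (if i = g then w else I1 x i) else I0 x i)) =
      Real.exp (if g ∈ J' then w else 0) *
        ∑ x ∈ X1, Real.exp (∑ i ∈ (A x).erase g ∩ J'.erase g, I1 x i) := by
    rw [Finset.mul_sum]
    apply Finset.sum_congr rfl
    intro x hx
    rw [info2_sumB (hg1 x hx), Real.exp_add]
  rw [hA, hC]
  have hA0 := hF0 (J'.erase g)
  have hB0 := hF1 (J'.erase g)
  by_cases hgJ' : g ∈ J'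
  · have hcJ : J'.card = (J'.erase g).card + 1 := by
      rw [Finset.card_erase_of_mem hgJ']
      have := Finset.card_pos.2 ⟨g, hgJ'⟩
      omega
    simp only [hgJ', if_true]
    rw [hexpw, hcJ, pow_succ]
    have hpos : (0 : ℝ) < 2 ^ (J'.erase g).card := by positivity
    calc ∑ x ∈ X0, Real.exp (∑ i ∈ A x ∩ J'.erase g, I0 x i) +
          (X.card : ℝ) / X1.card *
            ∑ x ∈ X1, Real.exp (∑ i ∈ (A x).erase g ∩ J'.erase g, I1 x i)
        ≤ X0.card * 2 ^ (J'.erase g).card +
          (X.card : ℝ) / X1.card * (X1.card * 2 ^ (J'.erase g).card) := by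
          apply add_le_add hA0
          apply mul_le_mul_of_nonneg_left hB0 (by positivity)
      _ = (X0.card + X.card) * 2 ^ (J'.erase g).card := by
          field_simp
      _ ≤ (X.card + X.card) * 2 ^ (J'.erase g).card := by
          apply mul_le_mul_of_nonneg_right _ hpos.le
          linarith
      _ = X.card * (2 ^ (J'.erase g).card * 2) := by ring
  · have hcJ : J'.erase g = J' := Finset.erase_eq_of_notMem hgJ'
    simp only [hgJ', if_false, Real.exp_zero, one_mul]
    rw [hcJ] at hA0 hB0 ⊢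
    calc _ ≤ X0.card * 2 ^ J'.card + (X1.card : ℝ) * 2 ^ J'.card := add_le_add hA0 hB0
      _ = X.card * 2 ^ J'.card := by rw [hcR]; ring

theorem info2_termA {c c0 f e p : ℝ} (hc0 : 0 < c0) (hc : 0 ≤ c) (hf : 0 ≤ f) :
    Real.sqrt (c / f) * e * p = Real.sqrt (c / c0) * (Real.sqrt (c0 / f) * e * p) := by
  have hs : Real.sqrt (c / f) = Real.sqrt (c / c0) * Real.sqrt (c0 / f) := by
    rw [← Real.sqrt_mul (by positivity)]
    congr 1
    rw [div_mul_div_cancel₀ hc0.ne']
  rw [hs]
  ring

theorem info2_termB {c c1 f w s : ℝ} {n : ℕ} (hc1 : 0 < c1) (hc : 0 < c) (hf : 0 ≤ f)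
    (hw : w = Real.log (c / c1)) :
    Real.sqrt (c / f) * Real.exp (-(w + s) / 2) * (1 / 2) ^ (n + 1) =
      (1 / 2) * (Real.sqrt (c1 / f) * Real.exp (-s / 2) * (1 / 2) ^ n) := by
  have hexph : Real.exp (-w / 2) = Real.sqrt (c1 / c) := by
    have h1 : -w = Real.log (c1 / c) := by
      rw [hw, ← Real.log_inv, inv_div]
    rw [h1, Real.exp_half, Real.exp_log (by positivity)]
  have hone : Real.sqrt (c / c1) * Real.sqrt (c1 / c) = 1 := by
    rw [← Real.sqrt_mul (by positivity), div_mul_div_cancel₀ hc1.ne', div_self hc.ne',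
      Real.sqrt_one]
  rw [pow_succ, show -(w + s) / 2 = -w / 2 + -s / 2 by ring, Real.exp_add, hexph]
  rw [info2_termA (c0 := c1) hc1 hc.le hf]
  calc _ = (Real.sqrt (c / c1) * Real.sqrt (c1 / c)) * ((1 / 2) *
      (Real.sqrt (c1 / f) * Real.exp (-s / 2) * (1 / 2) ^ n)) := by ring
    _ = _ := by rw [hone, one_mul]

theorem info2_F2 {g : α} {X X0 X1 : Finset β} {A : β → Finset α}
    (hX0 : X0 = X.filter (fun x => g ∉ A x)) (hX1 : X1 = X.filter (fun x => g ∈ A x))
    (hsum : ∀ f : β → ℝ, ∑ x ∈ X, f x = ∑ x ∈ X0, f x + ∑ x ∈ X1, f x)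
    (hcR : (X.card : ℝ) = X0.card + X1.card) (hc1 : (0 : ℝ) < X1.card) {w : ℝ}
    (hw : w = Real.log (X.card / X1.card)) {I0 I1 : β → α → ℝ}
    (hE0 : ∑ x ∈ X0, Real.sqrt (X0.card / (X0.filter (fun x' => A x' = A x)).card) *
        Real.exp (-(∑ i ∈ A x, I0 x i) / 2) * (1 / 2) ^ (A x).card ≤ X0.card)
    (hE1 : ∑ x ∈ X1, Real.sqrt (X1.card /
        (X1.filter (fun x' => (A x').erase g = (A x).erase g)).card) *
        Real.exp (-(∑ i ∈ (A x).erase g, I1 x i) / 2) * (1 / 2) ^ ((A x).erase g).card ≤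
        X1.card) :
    ∑ x ∈ X, Real.sqrt (X.card / (X.filter (fun x' => A x' = A x)).card) *
        Real.exp (-(∑ i ∈ A x,
          (if g ∈ A x then (if i = g then w else I1 x i) else I0 x i)) / 2) *
          (1 / 2) ^ (A x).card ≤ X.card := by
  have hc0 : (0 : ℝ) ≤ X0.card := Nat.cast_nonneg _
  have hc : (0 : ℝ) < X.card := by rw [hcR]; linarith
  have hA : ∀ x ∈ X0, Real.sqrt (X.card / (X.filter (fun x' => A x' = A x)).card) *
      Real.exp (-(∑ i ∈ A x,
        (if g ∈ A x then (if i = g then w else I1 x i) else I0 x i)) / 2) *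
        (1 / 2) ^ (A x).card =
      Real.sqrt (X.card / X0.card) *
        (Real.sqrt (X0.card / (X0.filter (fun x' => A x' = A x)).card) *
      Real.exp (-(∑ i ∈ A x, I0 x i) / 2) * (1 / 2) ^ (A x).card) := by
    intro x hx
    have hgx : g ∉ A x := by
      rw [hX0, Finset.mem_filter] at hx
      exact hx.2
    have hf : X.filter (fun x' => A x' = A x) = X0.filter (fun x' => A x' = A x) := by
      ext x'
      simp only [hX0, Finset.mem_filter]
      constructor
      · rintro ⟨h, h'⟩
        exact ⟨⟨h, by rw [h']; exact hgx⟩, h'⟩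
      · rintro ⟨⟨h, _⟩, h'⟩
        exact ⟨h, h'⟩
    have hc0' : (0 : ℝ) < X0.card := by exact_mod_cast Finset.card_pos.2 ⟨x, hx⟩
    rw [hf]
    simp only [hgx, if_false]
    exact info2_termA hc0' hc.le (Nat.cast_nonneg _)
  have hB : ∀ x ∈ X1, Real.sqrt (X.card / (X.filter (fun x' => A x' = A x)).card) *
      Real.exp (-(∑ i ∈ A x,
        (if g ∈ A x then (if i = g then w else I1 x i) else I0 x i)) / 2) *
        (1 / 2) ^ (A x).card =
      (1 / 2) *
        (Real.sqrt (X1.card / (X1.filter (fun x' => (A x').erase g = (A x).erase g)).card) *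
      Real.exp (-(∑ i ∈ (A x).erase g, I1 x i) / 2) * (1 / 2) ^ ((A x).erase g).card) := by
    intro x hx
    have hgx : g ∈ A x := by
      rw [hX1, Finset.mem_filter] at hx
      exact hx.2
    have hf : X.filter (fun x' => A x' = A x) =
        X1.filter (fun x' => (A x').erase g = (A x).erase g) := by
      ext x'
      simp only [hX1, Finset.mem_filter]
      constructor
      · rintro ⟨h, h'⟩
        exact ⟨⟨h, by rw [h']; exact hgx⟩, by rw [h']⟩
      · rintro ⟨⟨h, hg'⟩, h'⟩
        refine ⟨h, ?_⟩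
        rw [← Finset.insert_erase hg', h', Finset.insert_erase hgx]
    rw [hf]
    simp only [hgx, if_true]
    have hsumI : ∑ i ∈ A x, (if i = g then w else I1 x i) =
        w + ∑ i ∈ (A x).erase g, I1 x i := by
      rw [← Finset.add_sum_erase _ _ hgx]
      simp only [if_true]
      congr 1
      apply Finset.sum_congr rfl
      intro i hi
      rw [if_neg (Finset.ne_of_mem_erase hi)]
    have hcA : (A x).card = ((A x).erase g).card + 1 := by
      rw [Finset.card_erase_of_mem hgx]
      have := Finset.card_pos.2 ⟨g, hgx⟩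
      omega
    rw [hsumI, hcA]
    exact info2_termB hc1 hc (Nat.cast_nonneg _) hw
  rw [hsum, Finset.sum_congr rfl hA, Finset.sum_congr rfl hB, ← Finset.mul_sum,
    ← Finset.mul_sum]
  have hfin : Real.sqrt (X.card / X0.card) * X0.card ≤ X0.card + X1.card / 2 := by
    rcases hc0.eq_or_lt with h | h
    · rw [← h, mul_zero]
      linarith
    · have h2 : Real.sqrt (X.card / X0.card) ≤ (X0.card + X1.card / 2) / X0.card := by
        apply Real.sqrt_le_iff.2
        refine ⟨by positivity, ?_⟩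
        rw [div_pow, div_le_div_iff₀ h (by positivity), hcR]
        nlinarith [sq_nonneg (X1.card : ℝ), mul_pos h h, mul_nonneg h.le (sq_nonneg (X1.card : ℝ))]
      have h3 := mul_le_mul_of_nonneg_right h2 h.le
      rwa [div_mul_cancel₀ _ h.ne'] at h3
  calc _ ≤ Real.sqrt (X.card / X0.card) * X0.card + (1 / 2) * X1.card := by
        apply add_le_add
        · exact mul_le_mul_of_nonneg_left hE0 (Real.sqrt_nonneg _)
        · exact mul_le_mul_of_nonneg_left hE1 (by norm_num)
    _ ≤ X.card := by linarith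

theorem info2 (G : Finset α) : ∀ (X : Finset β) (A : β → Finset α), (∀ x ∈ X, A x ⊆ G) →
    ∃ I : β → α → ℝ, (∀ x i, 0 ≤ I x i) ∧
      (∀ J' : Finset α, ∑ x ∈ X, Real.exp (∑ i ∈ A x ∩ J', I x i) ≤ X.card * 2 ^ J'.card) ∧
      ∑ x ∈ X, Real.sqrt (X.card / (X.filter (fun x' => A x' = A x)).card) *
        Real.exp (-(∑ i ∈ A x, I x i) / 2) * (1 / 2) ^ (A x).card ≤ X.card := by
  induction G using Finset.induction_on with
  | empty =>
    intro X A h1
    have hA : ∀ x ∈ X, A x = ∅ := fun x hx => Finset.subset_empty.1 (h1 x hx)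
    refine ⟨fun _ _ => 0, fun _ _ => le_refl _, ?_, ?_⟩
    · intro J'
      simp only [Finset.sum_const_zero, Real.exp_zero, Finset.sum_const, nsmul_eq_mul, mul_one]
      have h2 : (1 : ℝ) ≤ 2 ^ J'.card := one_le_pow₀ (by norm_num)
      have h3 : (0 : ℝ) ≤ X.card := Nat.cast_nonneg _
      nlinarith
    · have h : ∀ x ∈ X, Real.sqrt (X.card / (X.filter (fun x' => A x' = A x)).card) *
        Real.exp (-(∑ i ∈ A x, (0 : ℝ)) / 2) * (1 / 2) ^ (A x).card = 1 := by
        intro x hx
        have hf : X.filter (fun x' => A x' = A x) = X := by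
          apply Finset.filter_true_of_mem
          intro x' hx'
          rw [hA x hx, hA x' hx']
        have hc : (0 : ℝ) < X.card := by exact_mod_cast Finset.card_pos.2 ⟨x, hx⟩
        rw [hf, hA x hx, div_self hc.ne']
        simp
      rw [Finset.sum_congr rfl h]
      simp
  | insert g G' hg ih =>
    intro X A h1
    obtain ⟨X0, hX0⟩ : ∃ X0, X0 = X.filter (fun x => g ∉ A x) := ⟨_, rfl⟩
    obtain ⟨X1, hX1⟩ : ∃ X1, X1 = X.filter (fun x => g ∈ A x) := ⟨_, rfl⟩
    have hcard : X.card = X0.card + X1.card := by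
      rw [hX0, hX1, add_comm]
      exact (Finset.card_filter_add_card_filter_not (s := X) (fun x => g ∈ A x)).symm
    have hsum : ∀ f : β → ℝ, ∑ x ∈ X, f x = ∑ x ∈ X0, f x + ∑ x ∈ X1, f x := by
      intro f
      rw [add_comm, hX0, hX1]
      exact (Finset.sum_filter_add_sum_filter_not X (fun x => g ∈ A x) f).symm
    have hg0 : ∀ x ∈ X0, g ∉ A x := by
      intro x hx
      rw [hX0, Finset.mem_filter] at hx
      exact hx.2
    have hg1 : ∀ x ∈ X1, g ∈ A x := by
      intro x hx
      rw [hX1, Finset.mem_filter] at hx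
      exact hx.2
    have h0sub : ∀ x ∈ X0, A x ⊆ G' := by
      intro x hx i hi
      rw [hX0, Finset.mem_filter] at hx
      have := h1 x hx.1 hi
      rw [Finset.mem_insert] at this
      rcases this with rfl | h
      · exact absurd hi hx.2
      · exact h
    have h1sub : ∀ x ∈ X1, (A x).erase g ⊆ G' := by
      intro x hx i hi
      rw [hX1, Finset.mem_filter] at hx
      rw [Finset.mem_erase] at hi
      have := h1 x hx.1 hi.2
      rw [Finset.mem_insert] at this
      rcases this with rfl | h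
      · exact absurd rfl hi.1
      · exact h
    obtain ⟨I0, hI0, hF0, hE0⟩ := ih X0 A h0sub
    by_cases hne : X1.Nonempty
    · obtain ⟨I1, hI1, hF1, hE1⟩ := ih X1 (fun x => (A x).erase g) h1sub
      have hc1 : (0 : ℝ) < X1.card := by exact_mod_cast hne.card_pos
      have hc0 : (0 : ℝ) ≤ X0.card := Nat.cast_nonneg _
      have hcR : (X.card : ℝ) = X0.card + X1.card := by exact_mod_cast hcard
      have hc : (0 : ℝ) < X.card := by rw [hcR]; linarith
      obtain ⟨w, hw⟩ : ∃ w : ℝ, w = Real.log (X.card / X1.card) := ⟨_, rfl⟩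
      have hw0 : 0 ≤ w := by
        rw [hw]
        apply Real.log_nonneg
        rw [le_div_iff₀ hc1]
        linarith
      have hexpw : Real.exp w = X.card / X1.card := by
        rw [hw]
        exact Real.exp_log (by positivity)
      refine ⟨fun x i => if g ∈ A x then (if i = g then w else I1 x i) else I0 x i,
        ?_, ?_, ?_⟩
      · intro x i
        dsimp only
        split_ifs
        · exact hw0
        · exact hI1 _ _
        · exact hI0 _ _
      · intro J'
        exact info2_F1 hg0 hg1 hsum hcR hc1 hexpw hF0 hF1 J'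
      · exact info2_F2 hX0 hX1 hsum hcR hc1 hw hE0 hE1
    · rw [Finset.not_nonempty_iff_eq_empty] at hne
      have hX : X = X0 := by
        rw [hX0]
        symm
        apply Finset.filter_true_of_mem
        intro x hx hgx
        have : x ∈ X1 := by
          rw [hX1]
          exact Finset.mem_filter.2 ⟨hx, hgx⟩
        rw [hne] at this
        exact absurd this (Finset.notMem_empty _)
      rw [hX]
      exact ⟨I0, hI0, hF0, hE0⟩

end Vale.Agent.H13.ED2
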