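import Vale.Agent.H13.ED.Final

/-! The joint optimisation: first-order conditions. -/

namespace Vale.Agent.H13.ED2

open Pointwise Finset Vale.Agent.H13.ED

theorem lim_sum {ι : Type*} (S : Finset ι) (c d e : ι → ℝ) (hd : ∀ j ∈ S, 0 < d j)
    (h : ∀ ε : ℝ, 0 < ε → ε < 1 → ∑ j ∈ S, c j / (d j + ε * e j) ≤ 0) :
    ∑ j ∈ S, c j / d j ≤ 0 := by
  have hlim : Filter.Tendsto (fun ε : ℝ => ∑ j ∈ S, c j / (d j + ε * e j))
      (nhdsWithin 0 (Set.Ioo 0 1)) (nhds (∑ j ∈ S, c j / d j)) := by
    have : ∑ j ∈ S, c j / d j = ∑ j ∈ S, c j / (d j + 0 * e j) := by simp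
    rw [this]
    apply Filter.Tendsto.mono_left _ nhdsWithin_le_nhds
    apply tendsto_finsetSum
    intro j hj
    apply Filter.Tendsto.div tendsto_const_nhds
    · exact Continuous.tendsto (by fun_prop : Continuous (fun ε : ℝ => d j + ε * e j)) 0
    · simpa using (hd j hj).ne'
  have : (nhdsWithin (0:ℝ) (Set.Ioo 0 1)).NeBot := by
    rw [nhdsWithin_Ioo_eq_nhdsGT (by norm_num : (0:ℝ) < 1)]
    infer_instance
  apply le_of_tendsto hlim
  filter_upwards [self_mem_nhdsWithin] with ε hε
  exact h ε hε.1 hε.2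

theorem fo {ι : Type*} (S : Finset ι) (u v δ : ι → ℝ) (h0 : ∀ j ∈ S, 0 < u j + v j)
    (h1 : ∀ j ∈ S, 0 < u j + v j + δ j)
    (h : ∀ ε : ℝ, 0 < ε → ε < 1 → ∑ j ∈ S, u j * (v j + ε * δ j) / (u j + (v j + ε * δ j)) ≤
      ∑ j ∈ S, u j * v j / (u j + v j)) :
    ∑ j ∈ S, (u j / (u j + v j)) ^ 2 * δ j ≤ 0 := by
  have e1 : ∑ j ∈ S, (u j / (u j + v j)) ^ 2 * δ j =
      ∑ j ∈ S, (u j ^ 2 * δ j / (u j + v j)) / (u j + v j) := by
    apply Finset.sum_congr rfl
    intro j hj
    have := (h0 j hj).ne'
    field_simp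
  rw [e1]
  apply lim_sum S _ _ δ h0
  intro ε hε0 hε1
  have h2 := h ε hε0 hε1
  have h3 : ε * ∑ j ∈ S, (u j ^ 2 * δ j / (u j + v j)) / (u j + v j + ε * δ j) ≤ 0 := by
    have e2 : ε * ∑ j ∈ S, (u j ^ 2 * δ j / (u j + v j)) / (u j + v j + ε * δ j) =
        ∑ j ∈ S, (u j * (v j + ε * δ j) / (u j + (v j + ε * δ j)) -
          u j * v j / (u j + v j)) := by
      rw [Finset.mul_sum]
      apply Finset.sum_congr rfl
      intro j hj
      have h4 := (h0 j hj).ne'
      have h5 : 0 < u j + v j + ε * δ j := by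
        have h6 := h0 j hj
        have h7 := h1 j hj
        have : u j + v j + ε * δ j = (1 - ε) * (u j + v j) + ε * (u j + v j + δ j) := by ring
        rw [this]
        have h8 : 0 < (1 - ε) * (u j + v j) := mul_pos (by linarith) h6
        have h9 : 0 < ε * (u j + v j + δ j) := mul_pos hε0 h7
        linarith
      have h6 : u j + (v j + ε * δ j) ≠ 0 := by
        have : u j + (v j + ε * δ j) = u j + v j + ε * δ j := by ring
        rw [this]
        exact h5.ne'
      rw [← add_assoc] at h6 ⊢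
      have h5' := h5.ne'
      field_simp
      ring
    rw [e2, Finset.sum_sub_distrib]
    linarith
  by_contra hcon
  push Not at hcon
  nlinarith

variable {n : ℕ}

theorem opt_exists {ι Ru : Type*} [Fintype ι] [DecidableEq ι] [Fintype Ru] [Nonempty Ru]
    [DecidableEq Ru]
    {Q : Set (Fin n → ℝ)} (hS : Solid Q) (hconv : Convex ℝ Q) (hcomp : IsCompact Q)
    (hne : Q.Nonempty) (x : ι → Fin n → ℝ) (J : ι → Finset (Fin n))
    (lam : Ru → ι → Fin n → ℝ) (hl0 : ∀ A k i, 0 ≤ lam A k i)
    (hl1 : ∀ A k, ∑ i ∈ J k, lam A k i ≤ 1) (κ η : ℝ) (hκ : 0 < κ) (hη : 0 < η)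
    (hηJ : ∀ k, η * (J k).card ≤ 1) :
    ∃ q ∈ stdSimplex ℝ Ru, ∃ y : ι → Fin n → ℝ, (∀ k, y k ∈ Q) ∧ (∀ k i, 0 ≤ y k i) ∧
      ∃ τ : ι → Fin n → ℝ, (∀ k i, 0 ≤ τ k i) ∧ (∀ k i, τ k i ≤ 1) ∧
        (∀ k i, τ k i * (κ * (∑ B, q B * lam B k i + η) + |x k i| * y k i) = |x k i| * y k i) ∧
        (∀ k, ∀ z ∈ Q, ∑ i ∈ J k, (1 - τ k i) ^ 2 * (|x k i| * |z i|) ≤ κ / 2) ∧
        ∀ A, ∑ k, ∑ i ∈ J k, τ k i ^ 2 * lam A k i ≤
          ∑ k, ∑ i ∈ J k, τ k i ^ 2 * ∑ B, q B * lam B k i := by
  set lb : (Ru → ℝ) → ι → Fin n → ℝ := fun q k i => ∑ B, q B * lam B k i with hlb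
  set b : (Ru → ℝ) → ι → Fin n → ℝ := fun q k i => κ * (lb q k i + η) with hb
  have hlb0 : ∀ q ∈ stdSimplex ℝ Ru, ∀ k i, 0 ≤ lb q k i := by
    intro q hq k i
    rw [hlb]
    apply Finset.sum_nonneg
    intro B _
    exact mul_nonneg (hq.1 B) (hl0 B k i)
  have hbpos : ∀ q ∈ stdSimplex ℝ Ru, ∀ k i, 0 < b q k i := by
    intro q hq k i
    rw [hb]
    have := hlb0 q hq k i
    dsimp only
    exact mul_pos hκ (by linarith)
  have hw0 : ∀ (y : Fin n → ℝ) k i, 0 ≤ |x k i| * |y i| := fun y k i => by positivity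
  set G : (Ru → ℝ) → ι → (Fin n → ℝ) → ℝ := fun q k v =>
    ∑ i ∈ J k, b q k i * (|x k i| * |v i|) / (b q k i + |x k i| * |v i|) with hG
  have hcont : ContinuousOn (fun p : (Ru → ℝ) × (ι → Fin n → ℝ) => ∑ k, G p.1 k (p.2 k))
      (stdSimplex ℝ Ru ×ˢ Set.univ.pi (fun _ => Q)) := by
    apply continuousOn_finsetSum
    intro k _
    rw [hG]
    apply continuousOn_finsetSum
    intro i _
    apply ContinuousOn.div
    · apply Continuous.continuousOn
      rw [hb, hlb]
      fun_prop
    · apply Continuous.continuousOn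
      rw [hb, hlb]
      fun_prop
    · rintro ⟨q, y⟩ ⟨hq, -⟩
      have h1 := hbpos q hq k i
      have h2 := hw0 (y k) k i
      dsimp only at h1 h2 ⊢
      linarith
  have hK : IsCompact (stdSimplex ℝ Ru ×ˢ (Set.univ.pi (fun _ : ι => Q))) :=
    (isCompact_stdSimplex ℝ Ru).prod (isCompact_univ_pi (fun _ => hcomp))
  have hKne : (stdSimplex ℝ Ru ×ˢ (Set.univ.pi (fun _ : ι => Q))).Nonempty := by
    obtain ⟨B⟩ := ‹Nonempty Ru›
    obtain ⟨y, hy⟩ := hne
    exact ⟨(Pi.single B 1, fun _ => y), single_mem_stdSimplex ℝ B, fun k _ => hy⟩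
  obtain ⟨⟨q, ys⟩, ⟨hq, hys⟩, hmax⟩ := hK.exists_isMaxOn hKne hcont
  have hmax' : ∀ q' ∈ stdSimplex ℝ Ru, ∀ y' : ι → Fin n → ℝ, (∀ k, y' k ∈ Q) →
      ∑ k, G q' k (y' k) ≤ ∑ k, G q k (ys k) := by
    intro q' hq' y' hy'
    have := hmax (a := (q', y')) ⟨hq', fun k _ => hy' k⟩
    exact this
  set y : ι → Fin n → ℝ := fun k i => |ys k i| with hy
  have hyQ : ∀ k, y k ∈ Q := fun k => hS (ys k) (hys k (Set.mem_univ k)) (y k) (fun i => by
    rw [hy]; simp)
  have hy0 : ∀ k i, 0 ≤ y k i := fun k i => abs_nonneg _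
  have hGy : ∀ q k, G q k (ys k) = G q k (y k) := by
    intro q k
    rw [hG, hy]
    simp only [abs_abs]
  simp only [hGy] at hmax'
  set w : ι → Fin n → ℝ := fun k i => |x k i| * y k i with hw
  have hwn : ∀ k i, 0 ≤ w k i := fun k i => mul_nonneg (abs_nonneg _) (hy0 k i)
  have hGw : ∀ q k, G q k (y k) = ∑ i ∈ J k, b q k i * w k i / (b q k i + w k i) := by
    intro q k
    rw [hG, hw]
    apply Finset.sum_congr rfl
    intro i _
    dsimp only
    rw [abs_of_nonneg (hy0 k i)]
  set τ : ι → Fin n → ℝ := fun k i => w k i / (b q k i + w k i) with hτ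
  have hbw : ∀ k i, 0 < b q k i + w k i := fun k i => by linarith [hbpos q hq k i, hwn k i]
  have h1τ : ∀ k i, 1 - τ k i = b q k i / (b q k i + w k i) := by
    intro k i
    have := (hbw k i).ne'
    rw [hτ]
    field_simp
    ring
  have hτ0 : ∀ k i, 0 ≤ τ k i := fun k i => div_nonneg (hwn k i) (hbw k i).le
  have hτ1 : ∀ k i, τ k i ≤ 1 := fun k i => by
    rw [hτ]
    dsimp only
    rw [div_le_one (hbw k i)]
    linarith [hbpos q hq k i]
  refine ⟨q, hq, y, hyQ, hy0, τ, hτ0, hτ1, ?_, ?_, ?_⟩
  · intro k i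
    have := (hbw k i).ne'
    show w k i / (b q k i + w k i) * (b q k i + w k i) = w k i
    field_simp
  · intro k z hz
    set z' : Fin n → ℝ := fun i => |z i| with hz'
    have hz'Q : z' ∈ Q := hS z hz z' (fun i => by rw [hz']; simp)
    have key : ∑ i ∈ J k, (b q k i / (b q k i + w k i)) ^ 2 * (|x k i| * |z i| - w k i) ≤ 0 := by
      apply fo
      · intro i _
        exact hbw k i
      · intro i _
        have := hbpos q hq k i
        have h2 := hw0 z k i
        linarith
      · intro ε h0 h1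
        have hmem : (fun i => (1 - ε) * y k i + ε * z' i) ∈ Q := by
          exact hconv (hyQ k) hz'Q (show (0:ℝ) ≤ 1 - ε by linarith) h0.le (by ring)
        have h2 := hmax' q hq (Function.update y k (fun i => (1 - ε) * y k i + ε * z' i)) (by
          intro k'
          by_cases hk : k' = k
          · subst hk
            simpa using hmem
          · rw [Function.update_of_ne hk]
            exact hyQ k')
        rw [← Finset.add_sum_erase _ _ (Finset.mem_univ k),
          ← Finset.add_sum_erase Finset.univ (fun k => G q k (y k)) (Finset.mem_univ k)] at h2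
        have h3 : ∑ k' ∈ Finset.univ.erase k,
            G q k' (Function.update y k (fun i => (1 - ε) * y k i + ε * z' i) k') =
            ∑ k' ∈ Finset.univ.erase k, G q k' (y k') := by
          apply Finset.sum_congr rfl
          intro k' hk'
          rw [Function.update_of_ne (Finset.ne_of_mem_erase hk')]
        rw [h3, Function.update_self] at h2
        have h4 : G q k (fun i => (1 - ε) * y k i + ε * z' i) ≤ G q k (y k) := by linarith
        rw [hGw] at h4
        refine le_trans (le_of_eq ?_) h4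
        rw [hG]
        apply Finset.sum_congr rfl
        intro i _
        have h5 : |(1 - ε) * y k i + ε * z' i| = (1 - ε) * y k i + ε * z' i := by
          apply abs_of_nonneg
          have := mul_nonneg (show (0:ℝ) ≤ 1 - ε by linarith) (hy0 k i)
          have := mul_nonneg h0.le (abs_nonneg (z i))
          linarith
        have h6 : |x k i| * |(1 - ε) * y k i + ε * z' i| = w k i + ε * (|x k i| * |z i| - w k i) := by
          rw [h5, hw, hz']
          ring
        rw [h6]
    have e : ∑ i ∈ J k, (1 - τ k i) ^ 2 * (|x k i| * |z i|) =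
        ∑ i ∈ J k, (b q k i / (b q k i + w k i)) ^ 2 * (|x k i| * |z i| - w k i) +
        ∑ i ∈ J k, b q k i * (τ k i * (1 - τ k i)) := by
      rw [← Finset.sum_add_distrib]
      apply Finset.sum_congr rfl
      intro i _
      have := (hbw k i).ne'
      rw [h1τ, hτ]
      field_simp
      ring
    rw [e]
    have h7 : ∑ i ∈ J k, b q k i * (τ k i * (1 - τ k i)) ≤ ∑ i ∈ J k, b q k i * (1 / 4) := by
      apply Finset.sum_le_sum
      intro i _
      apply mul_le_mul_of_nonneg_left _ (hbpos q hq k i).le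
      nlinarith [sq_nonneg (τ k i - 1 / 2)]
    have h8 : ∑ i ∈ J k, b q k i ≤ 2 * κ := by
      rw [hb]
      dsimp only
      rw [← Finset.mul_sum, Finset.sum_add_distrib]
      have h9 : ∑ i ∈ J k, lb q k i ≤ 1 := by
        rw [hlb]
        dsimp only
        rw [Finset.sum_comm]
        calc ∑ B, ∑ i ∈ J k, q B * lam B k i = ∑ B, q B * ∑ i ∈ J k, lam B k i := by
              apply Finset.sum_congr rfl
              intro B _
              rw [Finset.mul_sum]
          _ ≤ ∑ B, q B * 1 := by
              apply Finset.sum_le_sum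
              intro B _
              exact mul_le_mul_of_nonneg_left (hl1 B k) (hq.1 B)
          _ = 1 := by simp [hq.2]
      have h10 : ∑ i ∈ J k, η ≤ 1 := by
        rw [Finset.sum_const, nsmul_eq_mul, mul_comm]
        exact hηJ k
      nlinarith
    rw [← Finset.sum_mul] at h7
    linarith
  · intro A
    have key : ∑ j ∈ Finset.univ.sigma J, (w j.1 j.2 / (w j.1 j.2 + b q j.1 j.2)) ^ 2 *
        (κ * (lam A j.1 j.2 - lb q j.1 j.2)) ≤ 0 := by
      apply fo (Finset.univ.sigma J) (fun j => w j.1 j.2) (fun j => b q j.1 j.2)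
        (fun j => κ * (lam A j.1 j.2 - lb q j.1 j.2))
      · intro j _
        have := hbw j.1 j.2
        linarith
      · intro j _
        have h1 := hwn j.1 j.2
        have h2 := hl0 A j.1 j.2
        have h3 : b q j.1 j.2 + κ * (lam A j.1 j.2 - lb q j.1 j.2) =
          κ * (lam A j.1 j.2 + η) := by
          rw [hb]
          ring
        have h4 : 0 < κ * (lam A j.1 j.2 + η) := mul_pos hκ (by linarith)
        linarith
      · intro ε h0 h1
        set q' : Ru → ℝ := fun B => (1 - ε) * q B + ε * (Pi.single A 1 : Ru → ℝ) B with hq'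
        have hq'm : q' ∈ stdSimplex ℝ Ru := by
          exact convex_stdSimplex ℝ Ru hq (single_mem_stdSimplex ℝ A)
            (show (0:ℝ) ≤ 1 - ε by linarith) h0.le (by ring)
        have h2 := hmax' q' hq'm y hyQ
        simp only [hGw] at h2
        have hlbq' : ∀ k i, lb q' k i = (1 - ε) * lb q k i + ε * lam A k i := by
          intro k i
          rw [hlb, hq']
          dsimp only
          have : ∀ B, ((1 - ε) * q B + ε * (Pi.single A 1 : Ru → ℝ) B) * lam B k i =
              (1 - ε) * (q B * lam B k i) + ε * ((Pi.single A 1 : Ru → ℝ) B * lam B k i) := by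
            intro B
            ring
          simp only [this]
          rw [Finset.sum_add_distrib, ← Finset.mul_sum, ← Finset.mul_sum]
          congr 2
          rw [Finset.sum_eq_single A]
          · simp
          · intro B _ hB
            rw [Pi.single_eq_of_ne hB]
            ring
          · simp
        have hbq' : ∀ k i, b q' k i = b q k i + ε * (κ * (lam A k i - lb q k i)) := by
          intro k i
          have : b q' k i = κ * (lb q' k i + η) := rfl
          rw [this, hlbq']
          have : b q k i = κ * (lb q k i + η) := rfl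
          rw [this]
          ring
        rw [Finset.sum_sigma, Finset.sum_sigma]
        dsimp only
        calc ∑ k, ∑ i ∈ J k, w k i * (b q k i + ε * (κ * (lam A k i - lb q k i))) /
              (w k i + (b q k i + ε * (κ * (lam A k i - lb q k i))))
            = ∑ k, ∑ i ∈ J k, b q' k i * w k i / (b q' k i + w k i) := by
              apply Finset.sum_congr rfl
              intro k _
              apply Finset.sum_congr rfl
              intro i _
              rw [hbq']
              rw [mul_comm (w k i), add_comm (w k i)]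
          _ ≤ ∑ k, ∑ i ∈ J k, b q k i * w k i / (b q k i + w k i) := h2
          _ = _ := by
              apply Finset.sum_congr rfl
              intro k _
              apply Finset.sum_congr rfl
              intro i _
              rw [mul_comm (w k i), add_comm (w k i)]
    rw [Finset.sum_sigma] at key
    dsimp only at key
    have e : ∑ k, ∑ i ∈ J k, (w k i / (w k i + b q k i)) ^ 2 * (κ * (lam A k i - lb q k i)) =
        κ * (∑ k, ∑ i ∈ J k, τ k i ^ 2 * lam A k i - ∑ k, ∑ i ∈ J k, τ k i ^ 2 * lb q k i) := by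
      rw [← Finset.sum_sub_distrib, Finset.mul_sum]
      apply Finset.sum_congr rfl
      intro k _
      rw [← Finset.sum_sub_distrib, Finset.mul_sum]
      apply Finset.sum_congr rfl
      intro i _
      rw [hτ]
      dsimp only
      rw [add_comm (w k i)]
      ring
    rw [e] at key
    by_contra hcon
    push Not at hcon
    have : 0 < ∑ k, ∑ i ∈ J k, τ k i ^ 2 * lam A k i -
        ∑ k, ∑ i ∈ J k, τ k i ^ 2 * ∑ B, q B * lam B k i := by linarith
    have h2 := mul_pos hκ this
    exact absurd key (not_le.2 h2)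

end Vale.Agent.H13.ED2
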