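import Vale.Agent.H13.ED2.Opt1
import Vale.Agent.H13.ED2.Info2

/-! Few sets suffice: the main counting argument. -/

namespace Vale.Agent.H13.ED2

open Pointwise Finset Vale.Agent.H13.ED

theorem card_big {ι α : Type*} [Fintype ι] [DecidableEq ι] [DecidableEq α] (f : ι → α) (N : ℕ)
    (hN : 0 < N)
    (h : ∀ Big : Finset ι, Fintype.card ι ≤ 2 * Big.card → N ≤ (Big.image f).card) :
    2 * (Finset.univ.filter (fun k => 2 * Fintype.card ι <
      N * (Finset.univ.filter (fun k' => f k' = f k)).card)).card < Fintype.card ι := by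
  set Big := Finset.univ.filter (fun k => 2 * Fintype.card ι <
      N * (Finset.univ.filter (fun k' => f k' = f k)).card) with hBig
  by_contra hcon
  push Not at hcon
  have h1 := h Big hcon
  have hne : (Big.image f).Nonempty := by
    rw [← Finset.card_pos]
    omega
  have h2 : ∑ b ∈ Big.image f, (2 * Fintype.card ι) <
      ∑ b ∈ Big.image f, N * (Finset.univ.filter (fun k' => f k' = b)).card := by
    apply Finset.sum_lt_sum_of_nonempty hne
    intro b hb
    obtain ⟨k, hk, rfl⟩ := Finset.mem_image.1 hb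
    rw [hBig, Finset.mem_filter] at hk
    exact hk.2
  rw [Finset.sum_const, smul_eq_mul, ← Finset.mul_sum] at h2
  have h3 : ∑ b ∈ Big.image f, (Finset.univ.filter (fun k' => f k' = b)).card ≤
      Fintype.card ι := by
    have h4 : (Finset.univ.filter (fun k => f k ∈ Big.image f)).card =
        ∑ b ∈ Big.image f,
          ((Finset.univ.filter (fun k => f k ∈ Big.image f)).filter (fun k' => f k' = b)).card := by
      apply Finset.card_eq_sum_card_fiberwise
      intro k hk
      simpa using hk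
    have h5 : ∑ b ∈ Big.image f,
          ((Finset.univ.filter (fun k => f k ∈ Big.image f)).filter (fun k' => f k' = b)).card =
        ∑ b ∈ Big.image f, (Finset.univ.filter (fun k' => f k' = b)).card := by
      apply Finset.sum_congr rfl
      intro b hb
      congr 1
      ext k
      simp only [Finset.mem_filter, Finset.mem_univ, true_and]
      constructor
      · exact fun h => h.2
      · intro h
        exact ⟨by rw [h]; exact hb, h⟩
    rw [← h5, ← h4]
    exact Finset.card_le_univ _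
  have h6 : N * ∑ b ∈ Big.image f, (Finset.univ.filter (fun k' => f k' = b)).card ≤
      N * Fintype.card ι := Nat.mul_le_mul_left _ h3
  have h7 : N * (2 * Fintype.card ι) ≤ (Big.image f).card * (2 * Fintype.card ι) :=
    Nat.mul_le_mul_right _ h1
  have h8 : N * (2 * Fintype.card ι) < N * Fintype.card ι := by omega
  have h9 : N * (2 * Fintype.card ι) = 2 * (N * Fintype.card ι) := by ring
  omega

/-- Markov step -/
theorem info_half {ι : Type*} [Fintype ι] [DecidableEq ι] (c W : ι → ℝ) (a : ι → ℕ) (R : ℕ)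
    (hR : 1 ≤ R) (T : ℝ) (hT : 44 * R ≤ T) (ha : ∀ k, a k ≤ 8 * R)
    (Sd : Finset ι) (hSd : Fintype.card ι ≤ 2 * (Sd.card : ℝ))
    (hc : ∀ k ∈ Sd, Real.exp T ≤ c k)
    (h : ∑ k, Real.sqrt (c k) * Real.exp (-(W k) / 2) * (1 / 2) ^ (a k) ≤ Fintype.card ι) :
    3 / 8 * (Fintype.card ι : ℝ) ≤ (Finset.univ.filter (fun k => T / 2 ≤ W k)).card := by
  have hRR : (1:ℝ) ≤ R := by exact_mod_cast hR
  have key : ∀ k ∈ Sd.filter (fun k => ¬ T / 2 ≤ W k),
      8 ≤ Real.sqrt (c k) * Real.exp (-(W k) / 2) * (1 / 2) ^ (a k) := by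
    intro k hk
    rw [Finset.mem_filter] at hk
    push Not at hk
    have h1 : Real.exp (T / 2) ≤ Real.sqrt (c k) := by
      rw [Real.exp_half]
      exact Real.sqrt_le_sqrt (hc k hk.1)
    have h2 : Real.exp (-(T / 2) / 2) ≤ Real.exp (-(W k) / 2) := by
      apply Real.exp_le_exp.2
      linarith
    have h3 : ((1:ℝ) / 2) ^ (8 * R) ≤ (1 / 2) ^ (a k) :=
      pow_le_pow_of_le_one (by norm_num) (by norm_num) (ha k)
    have h4 : (2:ℝ) ^ (11 * R) ≤ Real.exp (T / 2) * Real.exp (-(T / 2) / 2) := by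
      rw [← Real.exp_add]
      have h5 : (2:ℝ) ≤ Real.exp 1 := by
        have := Real.add_one_le_exp (1:ℝ)
        linarith
      calc (2:ℝ) ^ (11 * R) ≤ (Real.exp 1) ^ (11 * R) := pow_le_pow_left₀ (by norm_num) h5 _
        _ = Real.exp ((11 * R : ℕ) : ℝ) := by rw [← Real.exp_nat_mul, mul_one]
        _ ≤ _ := by
          apply Real.exp_le_exp.2
          push_cast
          linarith
    have h5 : (8:ℝ) ≤ 2 ^ (3 * R) := by
      calc (8:ℝ) = 2 ^ 3 := by norm_num
        _ ≤ 2 ^ (3 * R) := pow_le_pow_right₀ (by norm_num) (by omega)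
    calc (8:ℝ) ≤ 2 ^ (3 * R) := h5
      _ = 2 ^ (11 * R) * (1 / 2) ^ (8 * R) := by
        rw [show 11 * R = 3 * R + 8 * R by ring, pow_add, mul_assoc, ← mul_pow]
        norm_num
      _ ≤ (Real.exp (T / 2) * Real.exp (-(T / 2) / 2)) * (1 / 2) ^ (8 * R) :=
        mul_le_mul_of_nonneg_right h4 (by positivity)
      _ ≤ _ := by gcongr
  have h1 : 8 * ((Sd.filter (fun k => ¬ T / 2 ≤ W k)).card : ℝ) ≤ Fintype.card ι := by
    calc 8 * ((Sd.filter (fun k => ¬ T / 2 ≤ W k)).card : ℝ)
        = ∑ k ∈ Sd.filter (fun k => ¬ T / 2 ≤ W k), (8:ℝ) := by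
          rw [Finset.sum_const, nsmul_eq_mul, mul_comm]
      _ ≤ ∑ k ∈ Sd.filter (fun k => ¬ T / 2 ≤ W k),
            Real.sqrt (c k) * Real.exp (-(W k) / 2) * (1 / 2) ^ (a k) := Finset.sum_le_sum key
      _ ≤ ∑ k, Real.sqrt (c k) * Real.exp (-(W k) / 2) * (1 / 2) ^ (a k) := by
          apply Finset.sum_le_sum_of_subset_of_nonneg (Finset.subset_univ _)
          intro k _ _
          positivity
      _ ≤ _ := h
  have h2 : Sd.card = (Sd.filter (fun k => T / 2 ≤ W k)).card +
      (Sd.filter (fun k => ¬ T / 2 ≤ W k)).card :=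
    (Finset.card_filter_add_card_filter_not _).symm
  have h3 : (Sd.filter (fun k => T / 2 ≤ W k)).card ≤
      (Finset.univ.filter (fun k => T / 2 ≤ W k)).card :=
    Finset.card_le_card (Finset.filter_subset_filter _ (Finset.subset_univ _))
  have h4 : (Sd.card : ℝ) = (Sd.filter (fun k => T / 2 ≤ W k)).card +
      (Sd.filter (fun k => ¬ T / 2 ≤ W k)).card := by exact_mod_cast h2
  have h5 : ((Sd.filter (fun k => T / 2 ≤ W k)).card : ℝ) ≤
      (Finset.univ.filter (fun k => T / 2 ≤ W k)).card := by exact_mod_cast h3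
  linarith

/-- Reverse Markov -/
theorem many_good {ι : Type*} [Fintype ι] [DecidableEq ι] (g : ι → ℝ) (hg : ∀ k, g k ≤ 1)
    (h : 3 / 64 * (Fintype.card ι : ℝ) ≤ ∑ k, g k) :
    3 / 128 * (Fintype.card ι : ℝ) ≤ (Finset.univ.filter (fun k => 3 / 128 ≤ g k)).card := by
  have h1 : ∑ k, g k ≤ ∑ k, ((if 3 / 128 ≤ g k then (1:ℝ) else 0) + 3 / 128) := by
    apply Finset.sum_le_sum
    intro k _
    split_ifs with h2
    · linarith [hg k]
    · push Not at h2
      linarith
  rw [Finset.sum_add_distrib, Finset.sum_boole, Finset.sum_const, nsmul_eq_mul,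
    Finset.card_univ] at h1
  linarith

variable {n : ℕ}

/-- the counting step: Jensen and the information bound -/
theorem count_good {ι Ru : Type*} [Fintype ι] [DecidableEq ι] [Fintype Ru]
    (A : Ru → ι → Finset (Fin n)) (I : Ru → ι → Fin n → ℝ)
    (lam : Ru → ι → Fin n → ℝ) (T : ℝ) (hT : 0 ≤ T) (hI0 : ∀ B k i, 0 ≤ I B k i)
    (hlam : ∀ B k i, T * lam B k i ≤ if i ∈ A B k then I B k i else 0)
    (hF : ∀ B, ∀ J' : Finset (Fin n), ∑ k, Real.exp (∑ i ∈ A B k ∩ J', I B k i) ≤
      (Fintype.card ι : ℝ) * 2 ^ J'.card)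
    (q : Ru → ℝ) (hq : q ∈ stdSimplex ℝ Ru) (J' : Finset (Fin n)) (S : Finset ι)
    (hS : ∀ k ∈ S, 1 / 256 ≤ ∑ i ∈ J', ∑ B, q B * lam B k i) :
    (S.card : ℝ) * Real.exp (T / 256) ≤ (Fintype.card ι : ℝ) * 2 ^ J'.card := by
  have h1 : ∀ k, Real.exp (T * ∑ i ∈ J', ∑ B, q B * lam B k i) ≤
      ∑ B, q B * Real.exp (∑ i ∈ A B k ∩ J', I B k i) := by
    intro k
    have h2 : T * ∑ i ∈ J', ∑ B, q B * lam B k i ≤ ∑ B, q B * ∑ i ∈ A B k ∩ J', I B k i := by
      rw [Finset.mul_sum]
      calc ∑ i ∈ J', T * ∑ B, q B * lam B k i = ∑ i ∈ J', ∑ B, q B * (T * lam B k i) := by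
            apply Finset.sum_congr rfl
            intro i _
            rw [Finset.mul_sum]
            apply Finset.sum_congr rfl
            intro B _
            ring
        _ ≤ ∑ i ∈ J', ∑ B, q B * (if i ∈ A B k then I B k i else 0) := by
            apply Finset.sum_le_sum
            intro i _
            apply Finset.sum_le_sum
            intro B _
            exact mul_le_mul_of_nonneg_left (hlam B k i) (hq.1 B)
        _ = ∑ B, ∑ i ∈ J', q B * (if i ∈ A B k then I B k i else 0) := Finset.sum_comm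
        _ = ∑ B, q B * ∑ i ∈ A B k ∩ J', I B k i := by
            apply Finset.sum_congr rfl
            intro B _
            rw [← Finset.mul_sum]
            congr 1
            rw [Finset.inter_comm, Finset.sum_ite_mem]
    have h3 := convexOn_exp.map_sum_le (t := (Finset.univ : Finset Ru)) (w := q)
      (p := fun B => ∑ i ∈ A B k ∩ J', I B k i) (fun B _ => hq.1 B) hq.2 (fun B _ => Set.mem_univ _)
    simp only [smul_eq_mul] at h3
    exact le_trans (Real.exp_le_exp.2 h2) h3
  calc (S.card : ℝ) * Real.exp (T / 256) = ∑ k ∈ S, Real.exp (T / 256) := by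
        rw [Finset.sum_const, nsmul_eq_mul]
    _ ≤ ∑ k ∈ S, Real.exp (T * ∑ i ∈ J', ∑ B, q B * lam B k i) := by
        apply Finset.sum_le_sum
        intro k hk
        apply Real.exp_le_exp.2
        have := mul_le_mul_of_nonneg_left (hS k hk) hT
        linarith
    _ ≤ ∑ k, Real.exp (T * ∑ i ∈ J', ∑ B, q B * lam B k i) := by
        apply Finset.sum_le_sum_of_subset_of_nonneg (Finset.subset_univ _)
        intro k _ _
        positivity
    _ ≤ ∑ k, ∑ B, q B * Real.exp (∑ i ∈ A B k ∩ J', I B k i) := Finset.sum_le_sum (fun k _ => h1 k)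
    _ = ∑ B, q B * ∑ k, Real.exp (∑ i ∈ A B k ∩ J', I B k i) := by
        rw [Finset.sum_comm]
        apply Finset.sum_congr rfl
        intro B _
        rw [Finset.mul_sum]
    _ ≤ ∑ B, q B * ((Fintype.card ι : ℝ) * 2 ^ J'.card) := by
        apply Finset.sum_le_sum
        intro B _
        exact mul_le_mul_of_nonneg_left (hF B J') (hq.1 B)
    _ = _ := by rw [← Finset.sum_mul, hq.2, one_mul]

end Vale.Agent.H13.ED2
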