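import Vale.Agent.H13.ED2.Opt2

/-! Few sets suffice: main theorem. -/

namespace Vale.Agent.H13.ED2

open Pointwise Finset Vale.Agent.H13.ED

variable {n : ℕ}

open Classical in
/-- the family is good -/
def GoodFam {ι : Type*} [Fintype ι] (Q : Set (Fin n → ℝ)) (x : ι → Fin n → ℝ)
    (J : ι → Finset (Fin n)) (𝒜 : Finset (Finset (Fin n))) : Prop :=
  Fintype.card ι ≤ 2 * (Finset.univ.filter (fun k => ∃ A ∈ 𝒜, A ⊆ J k ∧
    ∀ z ∈ Q, ∑ i ∈ Aᶜ, |x k i| * |z i| ≤ 7200)).card

/-- one centre class -/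
theorem centre_class {ι : Type*}
    {P : Set (Fin n → ℝ)} (hP : Solid P)
    (x : ι → Fin n → ℝ) (hx : ∀ k, x k ∈ P) (J : ι → Finset (Fin n))
    (y : ι → Fin n → ℝ) (hy0 : ∀ k i, 0 ≤ y k i)
    (lb : ι → Fin n → ℝ) (hlb0 : ∀ k i, 0 ≤ lb k i) (hlb1 : ∀ k, ∑ i ∈ J k, lb k i ≤ 1)
    (η : ℝ) (hη : 0 < η)
    (τ : ι → Fin n → ℝ) (hτ0 : ∀ k i, 0 ≤ τ k i) (hτ1 : ∀ k i, τ k i ≤ 1)
    (hτ : ∀ k i, τ k i * (3584 * (lb k i + η) + |x k i| * y k i) = |x k i| * y k i)
    (c : Fin n → ℝ) {k k' : ι} (hk : 3 / 128 ≤ ∑ i ∈ J k, τ k i ^ 2 * lb k i)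
    (h1 : (fun i => if i ∈ J k then y k i else 0) - c ∈ polar P)
    (h2 : (fun i => if i ∈ J k' then y k' i else 0) - c ∈ polar P) :
    1 / 256 ≤ ∑ i ∈ J k', lb k i := by
  have h3 := two_point hP (hx k) h1 h2
  set Tk := (J k).filter (fun i => 1 / 8 ≤ τ k i) with hTk
  have h4 : ∑ i ∈ Tk \ J k', |x k i| * y k i ≤ 2 := by
    refine le_trans ?_ h3
    calc ∑ i ∈ Tk \ J k', |x k i| * y k i = ∑ i ∈ Tk \ J k', |x k i| *
          |(fun i => if i ∈ J k then y k i else 0) i - (fun i => if i ∈ J k' then y k' i else 0) i| := by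
          apply Finset.sum_congr rfl
          intro i hi
          rw [Finset.mem_sdiff, hTk, Finset.mem_filter] at hi
          simp only [hi.1.1, hi.2, if_true, if_false, sub_zero]
          rw [abs_of_nonneg (hy0 k i)]
      _ ≤ _ := by
          apply Finset.sum_le_sum_of_subset_of_nonneg (Finset.subset_univ _)
          intro i _ _
          positivity
  have h5 : ∀ i ∈ Tk, 512 * lb k i ≤ |x k i| * y k i := by
    intro i hi
    rw [hTk, Finset.mem_filter] at hi
    have h6 := hτ k i
    have h7 := hi.2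
    have h8 := hlb0 k i
    have h9 : 0 ≤ |x k i| * y k i := mul_nonneg (abs_nonneg _) (hy0 k i)
    have h10 : 0 ≤ 3584 * (lb k i + η) + |x k i| * y k i := by positivity
    have h11 : 1 / 8 * (3584 * (lb k i + η) + |x k i| * y k i) ≤ |x k i| * y k i := by
      calc _ ≤ τ k i * (3584 * (lb k i + η) + |x k i| * y k i) :=
            mul_le_mul_of_nonneg_right h7 h10
        _ = _ := h6
    linarith
  have h6 : ∑ i ∈ Tk \ J k', lb k i ≤ 1 / 256 := by
    have : 512 * ∑ i ∈ Tk \ J k', lb k i ≤ ∑ i ∈ Tk \ J k', |x k i| * y k i := by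
      rw [Finset.mul_sum]
      apply Finset.sum_le_sum
      intro i hi
      exact h5 i (Finset.mem_sdiff.1 hi).1
    linarith
  have h7 : 1 / 128 ≤ ∑ i ∈ Tk, lb k i := by
    have e : ∑ i ∈ J k, τ k i ^ 2 * lb k i = ∑ i ∈ Tk, τ k i ^ 2 * lb k i +
        ∑ i ∈ (J k).filter (fun i => ¬ 1 / 8 ≤ τ k i), τ k i ^ 2 * lb k i :=
      (Finset.sum_filter_add_sum_filter_not _ _ _).symm
    have h8 : ∑ i ∈ Tk, τ k i ^ 2 * lb k i ≤ ∑ i ∈ Tk, lb k i := by
      apply Finset.sum_le_sum
      intro i _
      have : τ k i ^ 2 ≤ 1 := pow_le_one₀ (hτ0 k i) (hτ1 k i)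
      calc _ ≤ 1 * lb k i := mul_le_mul_of_nonneg_right this (hlb0 k i)
        _ = _ := one_mul _
    have h9 : ∑ i ∈ (J k).filter (fun i => ¬ 1 / 8 ≤ τ k i), τ k i ^ 2 * lb k i ≤
        1 / 64 * ∑ i ∈ J k, lb k i := by
      rw [Finset.mul_sum]
      calc _ ≤ ∑ i ∈ (J k).filter (fun i => ¬ 1 / 8 ≤ τ k i), 1 / 64 * lb k i := by
            apply Finset.sum_le_sum
            intro i hi
            have h10 := (Finset.mem_filter.1 hi).2
            push Not at h10
            apply mul_le_mul_of_nonneg_right _ (hlb0 k i)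
            have := hτ0 k i
            nlinarith
        _ ≤ _ := by
            apply Finset.sum_le_sum_of_subset_of_nonneg (Finset.filter_subset _ _)
            intro i _ _
            have := hlb0 k i
            positivity
    have h10 := hlb1 k
    linarith
  have h8 : ∑ i ∈ Tk, lb k i = ∑ i ∈ Tk \ J k', lb k i + ∑ i ∈ Tk ∩ J k', lb k i := by
    rw [← Finset.sum_union]
    · congr 1
      ext i
      simp only [Finset.mem_union, Finset.mem_sdiff, Finset.mem_inter]
      tauto
    · rw [Finset.disjoint_left]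
      intro i h9 h10
      exact (Finset.mem_sdiff.1 h9).2 (Finset.mem_inter.1 h10).2
  have h9 : ∑ i ∈ Tk ∩ J k', lb k i ≤ ∑ i ∈ J k', lb k i := by
    apply Finset.sum_le_sum_of_subset_of_nonneg Finset.inter_subset_right
    intro i _ _
    exact hlb0 k i
  linarith

open Classical in
theorem few_sets {ι : Type*} [Fintype ι] [DecidableEq ι] [Nonempty ι]
    {P Q : Set (Fin n → ℝ)} (hP : Solid P) (hQ : Solid Q) (hQc : Convex ℝ Q)
    (hQk : IsCompact Q) (hQn : Q.Nonempty)
    {s : Finset (Fin n → ℝ)} (hs : Covers Q (polar P) s) {R : ℕ} (hR : 1 ≤ R)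
    (hsR : s.card ≤ 2 ^ R)
    (x : ι → Fin n → ℝ) (hx : ∀ k, x k ∈ P) (J : ι → Finset (Fin n))
    (hJ : ∀ k, (J k).card ≤ 8 * R)
    (hJz : ∀ k, ∀ z ∈ Q, ∑ i ∈ (J k)ᶜ, |x k i| * |z i| ≤ 32) :
    ∃ 𝒜 : Finset (Finset (Fin n)), 𝒜.card ≤ 2 ^ (3841 * R) ∧ GoodFam Q x J 𝒜 := by
  have hRR : (1:ℝ) ≤ R := by exact_mod_cast hR
  -- minimal good family
  have hGne : (Finset.univ.filter (fun 𝒜 => GoodFam Q x J 𝒜)).Nonempty := by
    refine ⟨Finset.univ, ?_⟩
    rw [Finset.mem_filter]
    refine ⟨Finset.mem_univ _, ?_⟩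
    unfold GoodFam
    have : Finset.univ.filter (fun k => ∃ A ∈ (Finset.univ : Finset (Finset (Fin n))), A ⊆ J k ∧
        ∀ z ∈ Q, ∑ i ∈ Aᶜ, |x k i| * |z i| ≤ 7200) = Finset.univ := by
      apply Finset.filter_true_of_mem
      intro k _
      refine ⟨J k, Finset.mem_univ _, Finset.Subset.refl _, ?_⟩
      intro z hz
      exact le_trans (hJz k z hz) (by norm_num)
    rw [this, Finset.card_univ]
    omega
  obtain ⟨𝒜, h𝒜, hmin⟩ := Finset.exists_min_image _ Finset.card hGne
  rw [Finset.mem_filter] at h𝒜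
  refine ⟨𝒜, ?_, h𝒜.2⟩
  have hmin' : ∀ ℬ, GoodFam Q x J ℬ → 𝒜.card ≤ ℬ.card := fun ℬ hℬ =>
    hmin ℬ (Finset.mem_filter.2 ⟨Finset.mem_univ _, hℬ⟩)
  by_contra hcon
  push Not at hcon
  set N := 𝒜.card with hN
  have hN0 : 0 < N := lt_of_le_of_lt (Nat.zero_le _) hcon
  set m := Fintype.card ι with hm
  have hm0 : 0 < m := Fintype.card_pos
  have hmR : (0:ℝ) < m := by exact_mod_cast hm0
  have hNR : (2:ℝ) ^ (3841 * R) < N := by exact_mod_cast hcon
  have hNR0 : (0:ℝ) < N := by exact_mod_cast hN0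
  set T : ℝ := Real.log (N / 2) with hT
  have hexpT : Real.exp T = N / 2 := Real.exp_log (by positivity)
  have hexpT2 : (2:ℝ) ^ (3840 * R) < Real.exp T := by
    rw [hexpT, lt_div_iff₀ (by norm_num)]
    calc (2:ℝ) ^ (3840 * R) * 2 = 2 ^ (3840 * R + 1) := by rw [pow_succ]
      _ ≤ 2 ^ (3841 * R) := pow_le_pow_right₀ (by norm_num) (by omega)
      _ < N := hNR
  have hT44 : 44 * (R:ℝ) ≤ T := by
    by_contra hc
    push Not at hc
    have h1 : Real.exp T ≤ Real.exp (44 * (R:ℝ)) := Real.exp_le_exp.2 hc.le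
    have h2 : Real.exp (44 * (R:ℝ)) ≤ 2 ^ (88 * R) := by
      have h3 : Real.exp 1 ≤ 2 ^ 2 := by
        have := Real.exp_one_lt_d9
        norm_num at this ⊢
        linarith
      have h4 : Real.exp (44 * (R:ℝ)) = (Real.exp 1) ^ (44 * R) := by
        rw [← Real.exp_nat_mul, mul_one]
        push_cast
        rfl
      rw [h4]
      calc (Real.exp 1) ^ (44 * R) ≤ (2 ^ 2) ^ (44 * R) :=
            pow_le_pow_left₀ (Real.exp_pos _).le h3 _
        _ = 2 ^ (88 * R) := by rw [← pow_mul]; congr 1; ring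
    have h3 : (2:ℝ) ^ (88 * R) ≤ 2 ^ (3840 * R) := pow_le_pow_right₀ (by norm_num) (by omega)
    linarith
  have hT0 : 0 < T := by linarith
  -- information weights
  have hinfo := fun A : ι → Finset (Fin n) => info2 (Finset.univ : Finset (Fin n))
    (Finset.univ : Finset ι) A (fun _ _ => Finset.subset_univ _)
  choose I hI0 hI1 hI2 using hinfo
  set W : (ι → Finset (Fin n)) → ι → ℝ := fun A k => ∑ i ∈ A k, I A k i with hW
  set lam : (ι → Finset (Fin n)) → ι → Fin n → ℝ := fun A k i =>
    if i ∈ A k then I A k i / max T (W A k) else 0 with hlam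
  have hmax0 : ∀ A k, 0 < max T (W A k) := fun A k => lt_of_lt_of_le hT0 (le_max_left _ _)
  have hl0 : ∀ A k i, 0 ≤ lam A k i := by
    intro A k i
    rw [hlam]
    dsimp only
    split_ifs
    · exact div_nonneg (hI0 _ _ _) (hmax0 A k).le
    · exact le_refl _
  have hl1 : ∀ A k, ∑ i ∈ J k, lam A k i ≤ 1 := by
    intro A k
    calc ∑ i ∈ J k, lam A k i ≤ ∑ i, lam A k i := by
          apply Finset.sum_le_sum_of_subset_of_nonneg (Finset.subset_univ _)
          intro i _ _
          exact hl0 A k i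
      _ = ∑ i ∈ A k, I A k i / max T (W A k) := by
          rw [hlam]
          dsimp only
          rw [Finset.sum_ite_mem, Finset.univ_inter]
      _ = W A k / max T (W A k) := by rw [← Finset.sum_div]
      _ ≤ 1 := by
          rw [div_le_one (hmax0 A k)]
          exact le_max_right _ _
  obtain ⟨q, hq, y, hyQ, hy0, τ, hτ0, hτ1, hτ, hfo1, hfo2⟩ := opt_exists hQ hQc hQk hQn x J lam
    hl0 hl1 3584 (1 / (8 * R)) (by norm_num) (by positivity) (by
      intro k
      have h1 : ((J k).card : ℝ) ≤ 8 * R := by exact_mod_cast hJ k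
      rw [div_mul_eq_mul_div, one_mul, div_le_one (by positivity)]
      exact h1)
  set lb : ι → Fin n → ℝ := fun k i => ∑ B, q B * lam B k i with hlb
  have hlb0 : ∀ k i, 0 ≤ lb k i := by
    intro k i
    apply Finset.sum_nonneg
    intro B _
    exact mul_nonneg (hq.1 B) (hl0 B k i)
  have hlb1 : ∀ k, ∑ i ∈ J k, lb k i ≤ 1 := by
    intro k
    rw [hlb]
    dsimp only
    rw [Finset.sum_comm]
    calc ∑ B, ∑ i ∈ J k, q B * lam B k i = ∑ B, q B * ∑ i ∈ J k, lam B k i := by
          apply Finset.sum_congr rfl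
          intro B _
          rw [Finset.mul_sum]
      _ ≤ ∑ B, q B * 1 := by
          apply Finset.sum_le_sum
          intro B _
          exact mul_le_mul_of_nonneg_left (hl1 B k) (hq.1 B)
      _ = 1 := by simp [hq.2]
  -- the rule from τ
  set A' : ι → Finset (Fin n) := fun k => (J k).filter (fun i => 1 / 2 ≤ τ k i) with hA'
  have hA'J : ∀ k, A' k ⊆ J k := fun k => Finset.filter_subset _ _
  have hA'z : ∀ k, ∀ z ∈ Q, ∑ i ∈ (A' k)ᶜ, |x k i| * |z i| ≤ 7200 := by
    intro k z hz
    have h1 : (A' k)ᶜ = (J k).filter (fun i => ¬ 1 / 2 ≤ τ k i) ∪ (J k)ᶜ := by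
      ext i
      simp only [hA', Finset.mem_compl, Finset.mem_filter, Finset.mem_union]
      tauto
    rw [h1, Finset.sum_union]
    · have h2 : ∑ i ∈ (J k).filter (fun i => ¬ 1 / 2 ≤ τ k i), |x k i| * |z i| ≤
          4 * ∑ i ∈ J k, (1 - τ k i) ^ 2 * (|x k i| * |z i|) := by
        rw [Finset.mul_sum]
        calc _ ≤ ∑ i ∈ (J k).filter (fun i => ¬ 1 / 2 ≤ τ k i),
              4 * ((1 - τ k i) ^ 2 * (|x k i| * |z i|)) := by
              apply Finset.sum_le_sum
              intro i hi
              have h3 := (Finset.mem_filter.1 hi).2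
              push Not at h3
              have h4 : 1 ≤ 4 * (1 - τ k i) ^ 2 := by nlinarith
              have h5 : 0 ≤ |x k i| * |z i| := by positivity
              calc |x k i| * |z i| = 1 * (|x k i| * |z i|) := (one_mul _).symm
                _ ≤ (4 * (1 - τ k i) ^ 2) * (|x k i| * |z i|) := mul_le_mul_of_nonneg_right h4 h5
                _ = _ := by ring
          _ ≤ _ := by
              apply Finset.sum_le_sum_of_subset_of_nonneg (Finset.filter_subset _ _)
              intro i _ _
              positivity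
      have h3 := hfo1 k z hz
      have h4 := hJz k z hz
      linarith
    · rw [Finset.disjoint_left]
      intro i h2 h3
      exact (Finset.mem_compl.1 h3) (Finset.mem_filter.1 h2).1
  -- fibres
  have hbig := card_big A' N hN0 (by
    intro Big hBig
    apply hmin'
    unfold GoodFam
    refine le_trans hBig ?_
    apply Nat.mul_le_mul_left
    apply Finset.card_le_card
    intro k hk
    rw [Finset.mem_filter]
    exact ⟨Finset.mem_univ _, A' k, Finset.mem_image_of_mem _ hk, hA'J k, hA'z k⟩)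
  set c : ι → ℝ := fun k => (m : ℝ) / (Finset.univ.filter (fun k' => A' k' = A' k)).card with hc
  set Sd : Finset ι := Finset.univ.filter (fun k => ¬ (2 * m <
      N * (Finset.univ.filter (fun k' => A' k' = A' k)).card)) with hSd
  have hSdc : (m : ℝ) ≤ 2 * (Sd.card : ℝ) := by
    have h1 : (Finset.univ.filter (fun k => 2 * m <
      N * (Finset.univ.filter (fun k' => A' k' = A' k)).card)).card + Sd.card = m := by
      rw [hSd, Finset.card_filter_add_card_filter_not, Finset.card_univ]
    rw [← hm] at hbig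
    have h2 : m ≤ 2 * Sd.card := by omega
    exact_mod_cast h2
  have hcSd : ∀ k ∈ Sd, Real.exp T ≤ c k := by
    intro k hk
    rw [hSd, Finset.mem_filter] at hk
    have h1 := hk.2
    push Not at h1
    have h2 : 0 < (Finset.univ.filter (fun k' => A' k' = A' k)).card :=
      Finset.card_pos.2 ⟨k, Finset.mem_filter.2 ⟨Finset.mem_univ _, rfl⟩⟩
    have h3 : (0:ℝ) < (Finset.univ.filter (fun k' => A' k' = A' k)).card := by exact_mod_cast h2
    rw [hexpT, hc]
    dsimp only
    rw [div_le_div_iff₀ (by norm_num) h3]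
    have h4 : (N : ℝ) * (Finset.univ.filter (fun k' => A' k' = A' k)).card ≤ 2 * m := by
      exact_mod_cast h1
    linarith
  have hhalf := info_half c (W A') (fun k => (A' k).card) R hR T hT44
    (fun k => le_trans (Finset.card_le_card (hA'J k)) (hJ k)) Sd hSdc hcSd (by
      have := hI2 A'
      rw [Finset.card_univ] at this
      exact this)
  -- lower bound for the weighted sum
  have hlow : 3 / 64 * (m : ℝ) ≤ ∑ k, ∑ i ∈ J k, τ k i ^ 2 * lb k i := by
    refine le_trans ?_ (hfo2 A')
    calc 3 / 64 * (m : ℝ) = 3 / 8 * m * (1 / 8) := by ring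
      _ ≤ (Finset.univ.filter (fun k => T / 2 ≤ W A' k)).card * (1 / 8) := by
          apply mul_le_mul_of_nonneg_right hhalf (by norm_num)
      _ = ∑ k ∈ Finset.univ.filter (fun k => T / 2 ≤ W A' k), (1 / 8 : ℝ) := by
          rw [Finset.sum_const, nsmul_eq_mul]
      _ ≤ ∑ k ∈ Finset.univ.filter (fun k => T / 2 ≤ W A' k),
            ∑ i ∈ J k, τ k i ^ 2 * lam A' k i := by
          apply Finset.sum_le_sum
          intro k hk
          have h1 := (Finset.mem_filter.1 hk).2
          have h2 : 1 / 2 ≤ W A' k / max T (W A' k) := by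
            rw [div_le_div_iff₀ (by norm_num) (hmax0 A' k)]
            have : max T (W A' k) ≤ W A' k * 2 := by
              apply max_le
              · linarith
              · linarith
            linarith
          calc (1 / 8 : ℝ) ≤ 1 / 4 * (W A' k / max T (W A' k)) := by linarith
            _ = ∑ i ∈ A' k, 1 / 4 * (I A' k i / max T (W A' k)) := by
                rw [← Finset.mul_sum, ← Finset.sum_div]
            _ ≤ ∑ i ∈ A' k, τ k i ^ 2 * lam A' k i := by
                apply Finset.sum_le_sum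
                intro i hi
                have h3 : lam A' k i = I A' k i / max T (W A' k) := by
                  rw [hlam]
                  dsimp only
                  rw [if_pos hi]
                rw [← h3]
                apply mul_le_mul_of_nonneg_right _ (hl0 A' k i)
                rw [hA', Finset.mem_filter] at hi
                nlinarith [hi.2]
            _ ≤ _ := by
                apply Finset.sum_le_sum_of_subset_of_nonneg (hA'J k)
                intro i _ _
                exact mul_nonneg (sq_nonneg _) (hl0 A' k i)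
      _ ≤ _ := by
          apply Finset.sum_le_sum_of_subset_of_nonneg (Finset.subset_univ _)
          intro k _ _
          apply Finset.sum_nonneg
          intro i _
          exact mul_nonneg (sq_nonneg _) (hl0 A' k i)
  have hgood := many_good (fun k => ∑ i ∈ J k, τ k i ^ 2 * lb k i) (by
    intro k
    refine le_trans ?_ (hlb1 k)
    apply Finset.sum_le_sum
    intro i _
    have : τ k i ^ 2 ≤ 1 := pow_le_one₀ (hτ0 k i) (hτ1 k i)
    calc _ ≤ 1 * lb k i := mul_le_mul_of_nonneg_right this (hlb0 k i)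
      _ = _ := one_mul _) hlow
  set G2 : Finset ι := Finset.univ.filter (fun k => 3 / 128 ≤ ∑ i ∈ J k, τ k i ^ 2 * lb k i) with hG2
  -- centres
  rw [covers_iff] at hs
  have hy'Q : ∀ k, (fun i => if i ∈ J k then y k i else 0) ∈ Q := by
    intro k
    apply hQ (y k) (hyQ k)
    intro i
    split_ifs
    · exact le_refl _
    · simp
  choose cc hcc1 hcc2 using fun k => hs _ (hy'Q k)
  have hcls : ∀ v ∈ s, ((G2.filter (fun k => cc k = v)).card : ℝ) * Real.exp (T / 256) ≤
      (m : ℝ) * 2 ^ (8 * R) := by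
    intro v _
    rcases (G2.filter (fun k => cc k = v)).eq_empty_or_nonempty with h | ⟨k', hk'⟩
    · rw [h]
      simp
    · rw [Finset.mem_filter] at hk'
      have h1 := count_good (ι := ι) (fun A : ι → Finset (Fin n) => A) I lam T hT0.le hI0 (by
        intro B k i
        rw [hlam]
        dsimp only
        split_ifs
        · rw [← mul_div_assoc, div_le_iff₀ (hmax0 B k), mul_comm T]
          exact mul_le_mul_of_nonneg_left (le_max_left _ _) (hI0 _ _ _)
        · simp) (by
        intro B J'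
        have := hI1 B J'
        rw [Finset.card_univ] at this
        exact this) q hq (J k') (G2.filter (fun k => cc k = v)) (by
        intro k hk
        rw [Finset.mem_filter] at hk
        have e1 := hcc2 k
        rw [hk.2] at e1
        have e2 := hcc2 k'
        rw [hk'.2] at e2
        exact centre_class hP x hx J y hy0 lb hlb0 hlb1 (1 / (8 * R)) (by positivity) τ
          hτ0 hτ1 hτ v (Finset.mem_filter.1 hk.1).2 e1 e2)
      refine le_trans h1 ?_
      apply mul_le_mul_of_nonneg_left _ hmR.le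
      exact pow_le_pow_right₀ (by norm_num) (hJ k')
  have hG2c : (G2.card : ℝ) * Real.exp (T / 256) ≤ 2 ^ (9 * R) * m := by
    have h1 : G2.card = ∑ v ∈ s, (G2.filter (fun k => cc k = v)).card :=
      Finset.card_eq_sum_card_fiberwise (fun k _ => hcc1 k)
    rw [h1]
    push_cast
    rw [Finset.sum_mul]
    calc _ ≤ ∑ v ∈ s, (m : ℝ) * 2 ^ (8 * R) := Finset.sum_le_sum hcls
      _ = s.card * ((m : ℝ) * 2 ^ (8 * R)) := by rw [Finset.sum_const, nsmul_eq_mul]
      _ ≤ 2 ^ R * ((m : ℝ) * 2 ^ (8 * R)) := by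
          apply mul_le_mul_of_nonneg_right _ (by positivity)
          exact_mod_cast hsR
      _ = _ := by
          rw [show 9 * R = R + 8 * R by ring, pow_add]
          ring
  have hexp256 : Real.exp (T / 256) ≤ 2 ^ (15 * R) := by
    have h1 : 3 / 128 * (m : ℝ) * Real.exp (T / 256) ≤ 2 ^ (9 * R) * m :=
      le_trans (mul_le_mul_of_nonneg_right hgood (Real.exp_pos _).le) hG2c
    have h2 : 3 / 128 * Real.exp (T / 256) ≤ 2 ^ (9 * R) := by
      have h3 : (3 / 128 * Real.exp (T / 256)) * m ≤ 2 ^ (9 * R) * m := by linarith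
      exact le_of_mul_le_mul_right h3 hmR
    have h3 : (64:ℝ) ≤ 2 ^ (6 * R) := by
      calc (64:ℝ) = 2 ^ 6 := by norm_num
        _ ≤ 2 ^ (6 * R) := pow_le_pow_right₀ (by norm_num) (by omega)
    have h4 : (2:ℝ) ^ (15 * R) = 2 ^ (6 * R) * 2 ^ (9 * R) := by
      rw [← pow_add]
      congr 1
      ring
    rw [h4]
    have h5 : (0:ℝ) < 2 ^ (9 * R) := by positivity
    nlinarith
  have hfin : Real.exp T ≤ 2 ^ (3840 * R) := by
    have h1 : Real.exp T = (Real.exp (T / 256)) ^ 256 := by
      rw [← Real.exp_nat_mul]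
      congr 1
      push_cast
      ring
    rw [h1]
    calc (Real.exp (T / 256)) ^ 256 ≤ (2 ^ (15 * R)) ^ 256 :=
          pow_le_pow_left₀ (Real.exp_pos _).le hexp256 _
      _ = 2 ^ (3840 * R) := by
          rw [← pow_mul]
          congr 1
          ring
  linarith

end Vale.Agent.H13.ED2
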