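import Vale.Agent.H13.ED.Final

/-! Row VAR1: maximise `∑ u_i log (1 + a_i |y_i|)` over a solid convex body. -/

namespace Vale.Agent.H13.ED2

open Pointwise Finset Vale.Agent.H13.ED

theorem var_log_proof {n : ℕ} {Q : Set (Fin n → ℝ)} (hS : Solid Q) (hconv : Convex ℝ Q)
    (hcomp : IsCompact Q) (hne : Q.Nonempty) (u a : Fin n → ℝ) (hu : ∀ i, 0 ≤ u i)
    (hu1 : ∑ i, u i ≤ 1) (ha : ∀ i, 0 ≤ a i) :
    ∃ y0 ∈ Q, (∀ i, 0 ≤ y0 i) ∧
      ∀ y ∈ Q, ∑ i, u i * (a i * |y i|) / (1 + a i * y0 i) ≤ 1 := by
  have hcont : Continuous (fun y : Fin n → ℝ => ∑ i, u i * Real.log (1 + a i * |y i|)) := by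
    apply continuous_finsetSum
    intro i _
    apply Continuous.mul continuous_const
    apply Continuous.log
    · exact continuous_const.add (continuous_const.mul (continuous_abs.comp (continuous_apply i)))
    · intro y
      have := ha i
      positivity
  obtain ⟨ys, hys, hmax⟩ := hcomp.exists_isMaxOn hne hcont.continuousOn
  set y0 : Fin n → ℝ := fun i => |ys i| with hy0
  have hy0P : y0 ∈ Q := hS ys hys y0 (fun i => by rw [hy0]; simp)
  have hy0n : ∀ i, 0 ≤ y0 i := fun i => abs_nonneg _
  refine ⟨y0, hy0P, hy0n, ?_⟩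
  intro y hy
  set y' : Fin n → ℝ := fun i => |y i| with hy'
  have hy'P : y' ∈ Q := hS y hy y' (fun i => by rw [hy']; simp)
  have hy'n : ∀ i, 0 ≤ y' i := fun i => abs_nonneg _
  set t : Fin n → ℝ := fun i => a i * (y' i - y0 i) / (1 + a i * y0 i) with ht
  have hpos : ∀ i, 0 < 1 + a i * y0 i := fun i => by
    have := mul_nonneg (ha i) (hy0n i)
    linarith
  have htlb : ∀ i, -1 < t i := by
    intro i
    rw [ht]
    dsimp only
    rw [lt_div_iff₀ (hpos i)]
    have := mul_nonneg (ha i) (hy'n i)
    nlinarith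
  -- first order condition
  have key : ∀ ε : ℝ, 0 < ε → ε < 1 → ∑ i, u i * (t i / (1 + ε * t i)) ≤ 0 := by
    intro ε h0 h1
    have hmem : (fun i => (1 - ε) * y0 i + ε * y' i) ∈ Q := by
      have := hconv hy0P hy'P (show (0:ℝ) ≤ 1 - ε by linarith) h0.le (by ring)
      convert this using 1
      ext i
      simp
    have h := hmax hmem
    simp only [Set.mem_ofPred_eq] at h
    have e2 : ∀ i, |(1 - ε) * y0 i + ε * y' i| = (1 - ε) * y0 i + ε * y' i := by
      intro i
      apply abs_of_nonneg
      have := mul_nonneg (show (0:ℝ) ≤ 1 - ε by linarith) (hy0n i)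
      have := mul_nonneg h0.le (hy'n i)
      linarith
    have e3 : ∀ i, 1 + a i * ((1 - ε) * y0 i + ε * y' i) = (1 + a i * y0 i) * (1 + ε * t i) := by
      intro i
      have := (hpos i).ne'
      rw [ht]
      field_simp
      ring
    have hp1 : ∀ i, 0 < 1 + ε * t i := by
      intro i
      nlinarith [htlb i]
    simp only [e2, e3] at h
    have h2 : ∑ i, u i * Real.log ((1 + a i * y0 i) * (1 + ε * t i)) =
        ∑ i, u i * Real.log (1 + a i * y0 i) + ∑ i, u i * Real.log (1 + ε * t i) := by
      rw [← Finset.sum_add_distrib]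
      apply Finset.sum_congr rfl
      intro i _
      rw [Real.log_mul (hpos i).ne' (hp1 i).ne']
      ring
    rw [h2] at h
    have h3 : ∑ i, u i * Real.log (1 + ε * t i) ≤ 0 := by
      have : ∑ i, u i * Real.log (1 + a i * |ys i|) = ∑ i, u i * Real.log (1 + a i * y0 i) := rfl
      linarith
    have h4 : ∑ i, u i * (ε * (t i / (1 + ε * t i))) ≤ ∑ i, u i * Real.log (1 + ε * t i) := by
      apply Finset.sum_le_sum
      intro i _
      apply mul_le_mul_of_nonneg_left _ (hu i)
      have := log_one_add_ge (u := ε * t i) (by nlinarith [htlb i])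
      rw [← mul_div_assoc]
      exact this
    have h5 : ε * ∑ i, u i * (t i / (1 + ε * t i)) ≤ 0 := by
      rw [Finset.mul_sum]
      calc _ = ∑ i, u i * (ε * (t i / (1 + ε * t i))) := by
            apply Finset.sum_congr rfl
            intro i _
            ring
        _ ≤ 0 := le_trans h4 h3
    by_contra hcon
    push Not at hcon
    nlinarith
  have hlim : Filter.Tendsto (fun ε : ℝ => ∑ i, u i * (t i / (1 + ε * t i)))
      (nhdsWithin 0 (Set.Ioo 0 1)) (nhds (∑ i, u i * t i)) := by
    have : ∑ i, u i * t i = ∑ i, u i * (t i / (1 + 0 * t i)) := by simp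
    rw [this]
    apply Filter.Tendsto.mono_left _ nhdsWithin_le_nhds
    have hc : ContinuousAt (fun ε : ℝ => ∑ i, u i * (t i / (1 + ε * t i))) 0 := by
      apply tendsto_finsetSum
      intro i _
      apply Filter.Tendsto.const_mul
      apply Filter.Tendsto.div tendsto_const_nhds
      · exact Continuous.tendsto (by fun_prop : Continuous (fun ε : ℝ => 1 + ε * t i)) 0
      · simp
    exact hc
  have hfo : ∑ i, u i * t i ≤ 0 := by
    have : (nhdsWithin (0:ℝ) (Set.Ioo 0 1)).NeBot := by
      rw [nhdsWithin_Ioo_eq_nhdsGT (by norm_num : (0:ℝ) < 1)]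
      infer_instance
    apply le_of_tendsto hlim
    filter_upwards [self_mem_nhdsWithin] with ε hε
    exact key ε hε.1 hε.2
  have e : ∑ i, u i * (a i * |y i|) / (1 + a i * y0 i) =
      ∑ i, u i * t i + ∑ i, u i * (a i * y0 i / (1 + a i * y0 i)) := by
    rw [← Finset.sum_add_distrib]
    apply Finset.sum_congr rfl
    intro i _
    have := (hpos i).ne'
    rw [ht]
    dsimp only
    rw [hy']
    dsimp only
    field_simp
    ring
  rw [e]
  have h6 : ∑ i, u i * (a i * y0 i / (1 + a i * y0 i)) ≤ ∑ i, u i := by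
    apply Finset.sum_le_sum
    intro i _
    have : a i * y0 i / (1 + a i * y0 i) ≤ 1 := by
      rw [div_le_one (hpos i)]
      linarith
    calc _ ≤ u i * 1 := mul_le_mul_of_nonneg_left this (hu i)
      _ = u i := mul_one _
  linarith

end Vale.Agent.H13.ED2
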